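import Vale.Agent.Lib.P074S.Defs

open MeasureTheory
open scoped ENNReal NNReal RealInnerProductSpace

namespace Vale.Agent.Lib.P074

variable {d : ℕ}

/-- TASK C1. Legendre conjugate over the ball of radius `R`:
`ψ y := sup over ‖x‖ ≤ R of (⟪x, y⟫ - φ x)`. -/
theorem exists_conjugate (φ : E d → ℝ) (L R : ℝ≥0) (hφ : LipschitzWith L φ) :
    ∃ ψ : E d → ℝ, LipschitzWith R ψ ∧ (∀ x y, ‖x‖ ≤ R → ⟪x, y⟫ ≤ φ x + ψ y) ∧
      (∀ x t, ‖x‖ ≤ R → (∀ x', φ x + ⟪t, x' - x⟫ ≤ φ x') → φ x + ψ t = ⟪x, t⟫) := by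
  classical
  let B : Type := {x : E d // ‖x‖ ≤ (R : ℝ)}
  have : Nonempty B := ⟨⟨0, by simp⟩⟩
  let ψ : E d → ℝ := fun y => ⨆ x : B, (⟪x.1, y⟫ - φ x.1)
  have hlow : ∀ x : E d, ‖x‖ ≤ (R : ℝ) → φ 0 - L * R ≤ φ x := by
    intro x hx
    have h1 := hφ.dist_le_mul 0 x
    rw [Real.dist_eq, dist_zero_left] at h1
    have h2 := (abs_le.1 h1).2
    have h3 : (L : ℝ) * ‖x‖ ≤ L * R := mul_le_mul_of_nonneg_left hx L.2
    linarith
  have hbdd : ∀ y : E d, BddAbove (Set.range fun x : B => (⟪x.1, y⟫ - φ x.1)) := by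
    intro y
    refine ⟨R * ‖y‖ - (φ 0 - L * R), ?_⟩
    rintro _ ⟨x, rfl⟩
    have h1 : ⟪x.1, y⟫ ≤ ‖x.1‖ * ‖y‖ := real_inner_le_norm _ _
    have h2 : ‖x.1‖ * ‖y‖ ≤ R * ‖y‖ := mul_le_mul_of_nonneg_right x.2 (norm_nonneg _)
    have h3 := hlow x.1 x.2
    show ⟪x.1, y⟫ - φ x.1 ≤ _
    linarith
  have hyoung : ∀ x y, ‖x‖ ≤ (R : ℝ) → ⟪x, y⟫ - φ x ≤ ψ y := by
    intro x y hx
    exact le_ciSup (hbdd y) (⟨x, hx⟩ : B)
  refine ⟨ψ, ?_, ?_, ?_⟩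
  · refine LipschitzWith.of_le_add_mul R ?_
    intro y y'
    refine ciSup_le ?_
    intro x
    have h1 := hyoung x.1 y' x.2
    have h2 : ⟪x.1, y⟫ = ⟪x.1, y'⟫ + ⟪x.1, y - y'⟫ := by
      rw [inner_sub_right]; ring
    have h3 : ⟪x.1, y - y'⟫ ≤ ‖x.1‖ * ‖y - y'‖ := real_inner_le_norm _ _
    have h4 : ‖x.1‖ * ‖y - y'‖ ≤ R * ‖y - y'‖ :=
      mul_le_mul_of_nonneg_right x.2 (norm_nonneg _)
    rw [dist_eq_norm]
    linarith
  · intro x y hx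
    have := hyoung x y hx
    linarith
  · intro x t hx hsub
    have h1 := hyoung x t hx
    have h2 : ψ t ≤ ⟪x, t⟫ - φ x := by
      refine ciSup_le ?_
      intro x'
      have h3 := hsub x'.1
      rw [inner_sub_right, real_inner_comm x'.1 t, real_inner_comm x t] at h3
      linarith
    linarith

end Vale.Agent.Lib.P074
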