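import Vale.Agent.Lib.P074S.Defs

open MeasureTheory
open scoped ENNReal NNReal RealInnerProductSpace

namespace Vale.Agent.Lib.P074

variable {d : ℕ}

/-- TASK E1. Conversion of the real inequality to extended nonnegative reals.
(`ENNReal.ofReal (∫ f) ≤ ∫⁻ ENNReal.ofReal f` for `f ≥ 0`, also when `f` is not integrable.) -/
theorem L2dist_le_of_real {ρ : Measure (E d)} [IsProbabilityMeasure ρ] {T S : E d → E d}
    (hT : Measurable T) (hS : Measurable S) (L : ℝ≥0)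
    (hTL : ∀ᵐ x ∂ρ, ‖T x‖ ≤ L) (hSL : ∀ᵐ x ∂ρ, ‖S x‖ ≤ L)
    (π : Measure (E d × E d)) (c : ℝ≥0)
    (h : ∫ x, ‖T x - S x‖ ^ 2 ∂ρ ≤ c * Real.sqrt (∫ p, ‖p.1 - p.2‖ ∂π)) :
    L2dist ρ T S ≤ (NNReal.sqrt c : ℝ≥0) *
      (∫⁻ p, ENNReal.ofReal ‖p.1 - p.2‖ ∂π) ^ (1 / 4 : ℝ) := by
  have hmeas : Measurable fun x => ‖T x - S x‖ ^ 2 := ((hT.sub hS).norm).pow_const 2
  have hint : Integrable (fun x => ‖T x - S x‖ ^ 2) ρ := by
    refine Integrable.of_bound hmeas.aestronglyMeasurable ((2 * (L : ℝ)) ^ 2) ?_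
    filter_upwards [hTL, hSL] with x h1 h2
    rw [Real.norm_of_nonneg (by positivity)]
    apply pow_le_pow_left₀ (norm_nonneg _)
    calc ‖T x - S x‖ ≤ ‖T x‖ + ‖S x‖ := norm_sub_le _ _
      _ ≤ 2 * (L : ℝ) := by linarith
  have h1 : ∫⁻ x, ENNReal.ofReal (‖T x - S x‖ ^ 2) ∂ρ
      = ENNReal.ofReal (∫ x, ‖T x - S x‖ ^ 2 ∂ρ) :=
    (ofReal_integral_eq_lintegral_ofReal hint
      (Filter.Eventually.of_forall fun x => by positivity)).symm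
  have h2 : ENNReal.ofReal (∫ p, ‖p.1 - p.2‖ ∂π) ≤ ∫⁻ p, ENNReal.ofReal ‖p.1 - p.2‖ ∂π := by
    by_cases hi : Integrable (fun p : E d × E d => ‖p.1 - p.2‖) π
    · exact (ofReal_integral_eq_lintegral_ofReal hi
        (Filter.Eventually.of_forall fun p => norm_nonneg _)).le
    · rw [integral_undef hi]
      simp
  set J : ℝ := ∫ p, ‖p.1 - p.2‖ ∂π with hJ
  set W : ℝ≥0∞ := ∫⁻ p, ENNReal.ofReal ‖p.1 - p.2‖ ∂π with hW
  have hJ0 : 0 ≤ J := integral_nonneg fun p => norm_nonneg _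
  have h3 : ENNReal.ofReal (c * Real.sqrt J) ≤ (c : ℝ≥0∞) * W ^ (1 / 2 : ℝ) := by
    rw [ENNReal.ofReal_mul c.coe_nonneg, ENNReal.ofReal_coe_nnreal, Real.sqrt_eq_rpow,
      ← ENNReal.ofReal_rpow_of_nonneg hJ0 (by norm_num)]
    gcongr
  unfold L2dist
  rw [h1]
  calc ENNReal.ofReal (∫ x, ‖T x - S x‖ ^ 2 ∂ρ) ^ (1 / 2 : ℝ)
      ≤ ((c : ℝ≥0∞) * W ^ (1 / 2 : ℝ)) ^ (1 / 2 : ℝ) := by
        apply ENNReal.rpow_le_rpow _ (by norm_num)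
        exact (ENNReal.ofReal_le_ofReal h).trans h3
    _ = (c : ℝ≥0∞) ^ (1 / 2 : ℝ) * W ^ (1 / 4 : ℝ) := by
        rw [ENNReal.mul_rpow_of_nonneg _ _ (by norm_num), ← ENNReal.rpow_mul]
        norm_num
    _ = (NNReal.sqrt c : ℝ≥0) * W ^ (1 / 4 : ℝ) := by
        congr 1
        rw [NNReal.sqrt_eq_rpow, ENNReal.coe_rpow_of_nonneg _ (by norm_num)]

end Vale.Agent.Lib.P074
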