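import Vale.Agent.Lib.P074.Defs

open MeasureTheory
open scoped ENNReal NNReal RealInnerProductSpace

namespace Vale.Agent.Lib.P074

/-- `T` is a Brenier map from the uniform measure on `K` to `μ`: a Borel map pushing `unif K`
forward to `μ` such that, for some function `φ`, at almost every point `x` of `K` the vector `T x`
is a subgradient of `φ` at `x` relative to `K` (so `T` is almost everywhere the gradient of a
convex function). -/
def IsBrenierMap {d : ℕ} (K : Set (E d)) (μ : Measure (E d)) (T : E d → E d) : Prop :=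
  Measurable T ∧ (unif K).map T = μ ∧
    ∃ φ : E d → ℝ, ∀ᵐ x ∂(unif K), ∀ x' ∈ K, φ x + ⟪T x, x' - x⟫ ≤ φ x'

/-- The Wasserstein distance of order one: infimum over couplings. -/
noncomputable def W1 {d : ℕ} (μ ν : Measure (E d)) : ℝ≥0∞ :=
  ⨅ π : {π : Measure (E d × E d) // π.map Prod.fst = μ ∧ π.map Prod.snd = ν},
      ∫⁻ p, ENNReal.ofReal ‖p.1 - p.2‖ ∂π.1

end Vale.Agent.Lib.P074
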