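import Vale.Agent.Lib.P074S.Defs

open MeasureTheory
open scoped ENNReal NNReal RealInnerProductSpace

namespace Vale.Agent.Lib.P074

variable {d : ℕ}

/-- the cutoff function -/
noncomputable def cutoff (R : ℝ) (x : E d) : ℝ := max 0 (min 1 (R + 1 - ‖x‖))

lemma cutoff_nonneg (R : ℝ) (x : E d) : 0 ≤ cutoff R x := le_max_left _ _

lemma cutoff_le_one (R : ℝ) (x : E d) : cutoff R x ≤ 1 :=
  max_le zero_le_one (min_le_left _ _)

lemma cutoff_eq_one {R : ℝ} {x : E d} (hx : ‖x‖ ≤ R) : cutoff R x = 1 := by
  unfold cutoff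
  rw [min_eq_left (by linarith), max_eq_right zero_le_one]

lemma cutoff_eq_zero {R : ℝ} {x : E d} (hx : R + 1 ≤ ‖x‖) : cutoff R x = 0 := by
  unfold cutoff
  apply max_eq_left
  exact (min_le_right _ _).trans (by linarith)

lemma cutoff_continuous (R : ℝ) : Continuous (cutoff R : E d → ℝ) := by
  unfold cutoff
  fun_prop

lemma cutoff_lip (R : ℝ) (x y : E d) : |cutoff R x - cutoff R y| ≤ ‖x - y‖ := by
  unfold cutoff
  have h1 : |max 0 (min 1 (R + 1 - ‖x‖)) - max 0 (min 1 (R + 1 - ‖y‖))|
      ≤ |min 1 (R + 1 - ‖x‖) - min 1 (R + 1 - ‖y‖)| := by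
    have := abs_max_sub_max_le_max 0 (min 1 (R + 1 - ‖x‖)) 0 (min 1 (R + 1 - ‖y‖))
    simpa using this
  have h2 : |min 1 (R + 1 - ‖x‖) - min 1 (R + 1 - ‖y‖)| ≤ |(R + 1 - ‖x‖) - (R + 1 - ‖y‖)| := by
    have := abs_min_sub_min_le_max 1 (R + 1 - ‖x‖) 1 (R + 1 - ‖y‖)
    simpa using this
  have h3 : |(R + 1 - ‖x‖) - (R + 1 - ‖y‖)| ≤ ‖x - y‖ := by
    have : (R + 1 - ‖x‖) - (R + 1 - ‖y‖) = ‖y‖ - ‖x‖ := by ring
    rw [this, norm_sub_rev x y]
    exact abs_norm_sub_norm_le y x
  linarith

lemma cutoff_hasCompactSupport (R : ℝ) : HasCompactSupport (cutoff R : E d → ℝ) := by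
  apply HasCompactSupport.of_support_subset_isCompact (isCompact_closedBall (0 : E d) (R + 1))
  intro x hx
  rw [Function.mem_support] at hx
  rw [Metric.mem_closedBall, dist_zero_right]
  by_contra h
  exact hx (cutoff_eq_zero (not_le.1 h).le)

/-- TASK D1. Integral of the second difference. With the 1-Lipschitz cutoff
`χ x = max 0 (min 1 (R + 1 - ‖x‖))` (equal to 1 on `K`, zero off the ball of radius `R + 1`) and
`g x = φ (x + v) - φ x` (so `|g| ≤ L ‖v‖`):
`∫_K Δ²φ ≤ ∫ χ Δ²φ = ∫ χ x (g x - g (x - v)) = ∫ (χ x - χ (x + v)) g x ≤ ‖v‖ (L ‖v‖) vol(ball (R+2))`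
by translation invariance of Lebesgue measure. -/
theorem integral_second_diff_le (φ : E d → ℝ) (L : ℝ≥0) (hφ : LipschitzWith L φ)
    (hmid : ∀ x v, 2 * φ x ≤ φ (x + v) + φ (x - v)) (K : Set (E d)) (hK : MeasurableSet K)
    (R : ℝ) (hR : 0 ≤ R) (hKR : ∀ x ∈ K, ‖x‖ ≤ R) (v : E d) (hv : ‖v‖ ≤ 1) :
    ∫ x in K, (φ (x + v) + φ (x - v) - 2 * φ x)
      ≤ L * ‖v‖ ^ 2 * (volume (Metric.closedBall (0 : E d) (R + 2))).toReal := by
  have hφc : Continuous φ := hφ.continuous
  set χ : E d → ℝ := cutoff R with hχ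
  set g : E d → ℝ := fun x => φ (x + v) - φ x with hg
  have hgc : Continuous g := by
    simp only [hg]; fun_prop
  have hχc : Continuous χ := cutoff_continuous R
  have hχs : HasCompactSupport χ := cutoff_hasCompactSupport R
  have hgb : ∀ x, |g x| ≤ L * ‖v‖ := by
    intro x
    have := hφ.dist_le_mul (x + v) x
    rw [Real.dist_eq, dist_eq_norm] at this
    simpa [hg] using this
  -- integrability facts
  have i1 : Integrable (fun x => χ x * g x) :=
    (hχc.mul hgc).integrable_of_hasCompactSupport hχs.mul_right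
  have hχs' : HasCompactSupport (fun x => χ (x + v)) := by
    have := hχs.comp_homeomorph (Homeomorph.addRight v)
    simpa [Function.comp_def] using this
  have i2 : Integrable (fun x => χ (x + v) * g x) :=
    ((hχc.comp (continuous_id.add continuous_const)).mul hgc).integrable_of_hasCompactSupport
      hχs'.mul_right
  have i3 : Integrable (fun x => χ x * g (x - v)) :=
    (hχc.mul (hgc.comp (continuous_id.sub continuous_const))).integrable_of_hasCompactSupport
      hχs.mul_right
  have hD : ∀ x, φ (x + v) + φ (x - v) - 2 * φ x = g x - g (x - v) := by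
    intro x
    simp only [hg, sub_add_cancel]
    ring
  have hD0 : ∀ x, 0 ≤ φ (x + v) + φ (x - v) - 2 * φ x := fun x => by linarith [hmid x v]
  have i4 : Integrable (fun x => χ x * (φ (x + v) + φ (x - v) - 2 * φ x)) := by
    have : (fun x => χ x * (φ (x + v) + φ (x - v) - 2 * φ x))
        = fun x => χ x * g x - χ x * g (x - v) := by
      funext x; rw [hD x]; ring
    rw [this]
    exact i1.sub i3
  -- step 1
  have s1 : ∫ x in K, (φ (x + v) + φ (x - v) - 2 * φ x)
      ≤ ∫ x, χ x * (φ (x + v) + φ (x - v) - 2 * φ x) := by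
    rw [← integral_indicator hK]
    apply integral_mono_of_nonneg
    · exact Filter.Eventually.of_forall fun x => Set.indicator_nonneg (fun y _ => hD0 y) x
    · exact i4
    · refine Filter.Eventually.of_forall fun x => ?_
      by_cases hx : x ∈ K
      · simp only [Set.indicator_of_mem hx]
        rw [hχ, cutoff_eq_one (hKR x hx), one_mul]
      · simp only [Set.indicator_of_notMem hx]
        exact mul_nonneg (cutoff_nonneg R x) (hD0 x)
  -- step 2
  have s2 : ∫ x, χ x * (φ (x + v) + φ (x - v) - 2 * φ x)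
      = ∫ x, (χ x - χ (x + v)) * g x := by
    have e1 : ∫ x, χ x * (φ (x + v) + φ (x - v) - 2 * φ x)
        = (∫ x, χ x * g x) - ∫ x, χ x * g (x - v) := by
      rw [← integral_sub i1 i3]
      congr 1
      funext x; rw [hD x]; ring
    have e2 : ∫ x, χ x * g (x - v) = ∫ x, χ (x + v) * g x := by
      have := integral_sub_right_eq_self (μ := (volume : Measure (E d)))
        (fun x => χ (x + v) * g x) v
      simpa [sub_add_cancel] using this
    rw [e1, e2, ← integral_sub i1 i2]
    congr 1
    funext x; ring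
  -- step 3
  have s3 : ∫ x, (χ x - χ (x + v)) * g x
      ≤ ∫ x, (Metric.closedBall (0 : E d) (R + 2)).indicator (fun _ => ‖v‖ * (L * ‖v‖)) x := by
    apply integral_mono
    · have : (fun x => (χ x - χ (x + v)) * g x) = fun x => χ x * g x - χ (x + v) * g x := by
        funext x; ring
      rw [this]; exact i1.sub i2
    · apply IntegrableOn.integrable_indicator _ Metric.isClosed_closedBall.measurableSet
      exact (continuous_const.continuousOn).integrableOn_compact (isCompact_closedBall _ _)
    · intro x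
      by_cases hx : x ∈ Metric.closedBall (0 : E d) (R + 2)
      · simp only [Set.indicator_of_mem hx]
        have h1 : |χ x - χ (x + v)| ≤ ‖v‖ := by
          have := cutoff_lip R x (x + v)
          rwa [sub_add_cancel_left, norm_neg] at this
        calc (χ x - χ (x + v)) * g x ≤ |(χ x - χ (x + v)) * g x| := le_abs_self _
          _ = |χ x - χ (x + v)| * |g x| := abs_mul _ _
          _ ≤ ‖v‖ * (L * ‖v‖) := mul_le_mul h1 (hgb x) (abs_nonneg _) (norm_nonneg _)
      · simp only [Set.indicator_of_notMem hx]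
        rw [Metric.mem_closedBall, dist_zero_right, not_le] at hx
        have h1 : χ x = 0 := cutoff_eq_zero (by linarith)
        have h2 : χ (x + v) = 0 := by
          apply cutoff_eq_zero
          have : ‖x‖ ≤ ‖x + v‖ + ‖v‖ := by
            have := norm_sub_le (x + v) v
            simpa using this
          linarith
        rw [h1, h2]; simp
  have s4 : ∫ x, (Metric.closedBall (0 : E d) (R + 2)).indicator (fun _ => ‖v‖ * (L * ‖v‖)) x
      = L * ‖v‖ ^ 2 * (volume (Metric.closedBall (0 : E d) (R + 2))).toReal := by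
    rw [integral_indicator Metric.isClosed_closedBall.measurableSet, setIntegral_const]
    simp only [Measure.real, smul_eq_mul]
    ring
  linarith

end Vale.Agent.Lib.P074
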