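import Vale.Agent.Lib.P074S.Defs

open MeasureTheory
open scoped ENNReal NNReal RealInnerProductSpace

namespace Vale.Agent.Lib.P074

variable {d : ℕ}

/-- TASK G1. Easy half of Kantorovich-Rubinstein, for an arbitrary coupling `π`. -/
theorem gap_le {ρ μ ν : Measure (E d)} [IsProbabilityMeasure ρ] {T S : E d → E d}
    (hT : Measurable T) (hS : Measurable S) (hTμ : ρ.map T = μ) (hSν : ρ.map S = ν)
    (f : E d → ℝ) (M L : ℝ≥0) (hf : LipschitzWith M f)
    (hTL : ∀ᵐ x ∂ρ, ‖T x‖ ≤ L) (hSL : ∀ᵐ x ∂ρ, ‖S x‖ ≤ L)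
    (π : Measure (E d × E d)) (h1 : π.map Prod.fst = μ) (h2 : π.map Prod.snd = ν) :
    ∫ x, (f (S x) - f (T x)) ∂ρ ≤ M * ∫ p, ‖p.1 - p.2‖ ∂π := by
  have hμ : IsProbabilityMeasure μ := by
    rw [← hTμ]; exact Measure.isProbabilityMeasure_map hT.aemeasurable
  have hπ : IsProbabilityMeasure π := by
    constructor
    have h := measure_univ (μ := μ)
    rw [← h1, Measure.map_apply measurable_fst MeasurableSet.univ] at h
    simpa using h
  have hset : MeasurableSet {y : E d | ‖y‖ ≤ (L : ℝ)} :=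
    measurableSet_le measurable_norm measurable_const
  have hμL : ∀ᵐ y ∂μ, ‖y‖ ≤ (L : ℝ) := by
    rw [← hTμ]; exact (ae_map_iff hT.aemeasurable hset).2 hTL
  have hνL : ∀ᵐ y ∂ν, ‖y‖ ≤ (L : ℝ) := by
    rw [← hSν]; exact (ae_map_iff hS.aemeasurable hset).2 hSL
  have hπ1 : ∀ᵐ p ∂π, ‖p.1‖ ≤ (L : ℝ) := by
    rw [← h1] at hμL; exact (ae_map_iff measurable_fst.aemeasurable hset).1 hμL
  have hπ2 : ∀ᵐ p ∂π, ‖p.2‖ ≤ (L : ℝ) := by
    rw [← h2] at hνL; exact (ae_map_iff measurable_snd.aemeasurable hset).1 hνL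
  have hfm : Measurable f := hf.continuous.measurable
  have hfb : ∀ y : E d, ‖y‖ ≤ (L : ℝ) → ‖f y‖ ≤ |f 0| + M * L := by
    intro y hy
    have h3 := hf.dist_le_mul y 0
    rw [Real.dist_eq, dist_zero_right] at h3
    have h4 : (M : ℝ) * ‖y‖ ≤ M * L := mul_le_mul_of_nonneg_left hy M.2
    have h5 : |f y| ≤ |f y - f 0| + |f 0| := by
      have := abs_add_le (f y - f 0) (f 0)
      simpa using this
    rw [Real.norm_eq_abs]
    linarith
  have iT : Integrable (fun x => f (T x)) ρ :=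
    Integrable.of_bound (hfm.comp hT).aestronglyMeasurable (|f 0| + M * L)
      (hTL.mono fun x hx => hfb _ hx)
  have iS : Integrable (fun x => f (S x)) ρ :=
    Integrable.of_bound (hfm.comp hS).aestronglyMeasurable (|f 0| + M * L)
      (hSL.mono fun x hx => hfb _ hx)
  have i1 : Integrable (fun p : E d × E d => f p.1) π :=
    Integrable.of_bound (hfm.comp measurable_fst).aestronglyMeasurable (|f 0| + M * L)
      (hπ1.mono fun x hx => hfb _ hx)
  have i2 : Integrable (fun p : E d × E d => f p.2) π :=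
    Integrable.of_bound (hfm.comp measurable_snd).aestronglyMeasurable (|f 0| + M * L)
      (hπ2.mono fun x hx => hfb _ hx)
  have iN : Integrable (fun p : E d × E d => ‖p.1 - p.2‖) π := by
    refine Integrable.of_bound
      ((measurable_fst.sub measurable_snd).norm).aestronglyMeasurable ((L : ℝ) + L) ?_
    filter_upwards [hπ1, hπ2] with p hp1 hp2
    rw [Real.norm_eq_abs, abs_of_nonneg (norm_nonneg _)]
    exact (norm_sub_le _ _).trans (add_le_add hp1 hp2)
  have eT : ∫ x, f (T x) ∂ρ = ∫ p, f p.1 ∂π := by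
    rw [← integral_map hT.aemeasurable hfm.aestronglyMeasurable, hTμ, ← h1,
      integral_map measurable_fst.aemeasurable hfm.aestronglyMeasurable]
  have eS : ∫ x, f (S x) ∂ρ = ∫ p, f p.2 ∂π := by
    rw [← integral_map hS.aemeasurable hfm.aestronglyMeasurable, hSν, ← h2,
      integral_map measurable_snd.aemeasurable hfm.aestronglyMeasurable]
  rw [integral_sub iS iT, eT, eS, ← integral_sub i2 i1, ← integral_const_mul]
  refine integral_mono (i2.sub i1) (iN.const_mul _) ?_
  intro p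
  have h3 := hf.dist_le_mul p.2 p.1
  rw [Real.dist_eq, dist_eq_norm, norm_sub_rev] at h3
  exact (le_abs_self _).trans h3

end Vale.Agent.Lib.P074
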