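import Vale.Agent.Lib.P074S.Defs

open MeasureTheory
open scoped ENNReal NNReal RealInnerProductSpace

namespace Vale.Agent.Lib.P074

variable {d : ℕ}

/-- TASK P0. -/
theorem norm_le_sum_abs (v : E d) : ‖v‖ ≤ ∑ i : Fin d, |v i| := by
  have h : v = ∑ i : Fin d, EuclideanSpace.single i (v i) := by
    ext j
    simp [Finset.sum_apply]
  calc ‖v‖ = ‖∑ i : Fin d, EuclideanSpace.single i (v i)‖ := by rw [← h]
    _ ≤ ∑ i : Fin d, ‖EuclideanSpace.single i (v i)‖ := norm_sum_le _ _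
    _ = ∑ i : Fin d, |v i| := by simp

theorem pointwise_aux (φ ψ : E d → ℝ) (R : ℝ) (x t y : E d) (s : ℝ) (hs : 0 ≤ s)
    (hconj : ∀ x' y', ‖x'‖ ≤ R → ⟪x', y'⟫ ≤ φ x' + ψ y')
    (hx : ‖x‖ + s ≤ R)
    (hsub : ∀ x', φ x + ⟪t, x' - x⟫ ≤ φ x') (i : Fin d) :
    s * |(y - t) i| ≤ (φ x + ψ y - ⟪x, y⟫) +
      (φ (x + EuclideanSpace.single i s) + φ (x - EuclideanSpace.single i s) - 2 * φ x) := by
  have hn : ‖(EuclideanSpace.single i s : E d)‖ = s := by
    simp [abs_of_nonneg hs]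
  have hp : ‖x + EuclideanSpace.single i s‖ ≤ R :=
    (norm_add_le _ _).trans (by rw [hn]; exact hx)
  have hm : ‖x - EuclideanSpace.single i s‖ ≤ R :=
    (norm_sub_le _ _).trans (by rw [hn]; exact hx)
  have c1 := hconj _ y hp
  have c2 := hconj _ y hm
  have s1 := hsub (x + EuclideanSpace.single i s)
  have s2 := hsub (x - EuclideanSpace.single i s)
  have e1 : ⟪(EuclideanSpace.single i s : E d), y⟫ = s * y i := by
    simp [EuclideanSpace.inner_single_left]
  have e2 : ⟪t, (EuclideanSpace.single i s : E d)⟫ = s * t i := by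
    simp [EuclideanSpace.inner_single_right]
  rw [inner_add_left, e1] at c1
  rw [inner_sub_left, e1] at c2
  rw [add_sub_cancel_left, e2] at s1
  have e3 : x - EuclideanSpace.single i s - x = -(EuclideanSpace.single i s : E d) := by abel
  rw [e3, inner_neg_right, e2] at s2
  have hv : (y - t) i = y i - t i := rfl
  rw [hv]
  rcases abs_cases (y i - t i) with ⟨h, _⟩ | ⟨h, _⟩
  · rw [h]; nlinarith
  · rw [h]; nlinarith

/-- TASK P1. Pointwise lower bound of the duality gap. For each `i` and sign `σ` use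
`hconj (x + σ s e_i) y` and `hsub (x - σ s e_i)`; sum over `i`. -/
theorem pointwise_lower (φ ψ : E d → ℝ) (R : ℝ) (x t y : E d) (s : ℝ) (hs : 0 ≤ s)
    (hconj : ∀ x' y', ‖x'‖ ≤ R → ⟪x', y'⟫ ≤ φ x' + ψ y')
    (hx : ‖x‖ + s ≤ R)
    (hsub : ∀ x', φ x + ⟪t, x' - x⟫ ≤ φ x') :
    s * ‖y - t‖ ≤ d * (φ x + ψ y - ⟪x, y⟫) +
      ∑ i : Fin d, (φ (x + EuclideanSpace.single i s) + φ (x - EuclideanSpace.single i s)
        - 2 * φ x) := by
  calc s * ‖y - t‖ ≤ s * ∑ i : Fin d, |(y - t) i| :=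
        mul_le_mul_of_nonneg_left (norm_le_sum_abs _) hs
    _ = ∑ i : Fin d, s * |(y - t) i| := Finset.mul_sum _ _ _
    _ ≤ ∑ i : Fin d, ((φ x + ψ y - ⟪x, y⟫) +
          (φ (x + EuclideanSpace.single i s) + φ (x - EuclideanSpace.single i s) - 2 * φ x)) :=
        Finset.sum_le_sum fun i _ => pointwise_aux φ ψ R x t y s hs hconj hx hsub i
    _ = _ := by
        rw [Finset.sum_add_distrib]
        simp
        ring

end Vale.Agent.Lib.P074
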