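import Vale.Agent.Lib.P074S.Defs

open MeasureTheory
open scoped ENNReal NNReal RealInnerProductSpace

namespace Vale.Agent.Lib.P074

variable {d : ℕ}

/-- TASK R1. Regularisation of the potential: `φ x' := sup over good x of (φ0 x + ⟪T x, x' - x⟫)`,
good x meaning `x ∈ K`, `‖T x‖ ≤ L` and the subgradient inequality on `K` holds at `x`.
The good set is conull for the probability measure `ρ`, hence nonempty. -/
theorem exists_global_potential {ρ : Measure (E d)} [IsProbabilityMeasure ρ] {K : Set (E d)}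
    {T : E d → E d} {L : ℝ≥0} (hK : ∀ᵐ x ∂ρ, x ∈ K) (hTL : ∀ᵐ x ∂ρ, ‖T x‖ ≤ L)
    (φ0 : E d → ℝ) (h0 : ∀ᵐ x ∂ρ, ∀ x' ∈ K, φ0 x + ⟪T x, x' - x⟫ ≤ φ0 x') :
    ∃ φ : E d → ℝ, LipschitzWith L φ ∧ (∀ x v, 2 * φ x ≤ φ (x + v) + φ (x - v)) ∧
      ∀ᵐ x ∂ρ, ∀ x', φ x + ⟪T x, x' - x⟫ ≤ φ x' := by
  classical
  set S : Set (E d) := {x | x ∈ K ∧ ‖T x‖ ≤ L ∧ ∀ x' ∈ K, φ0 x + ⟪T x, x' - x⟫ ≤ φ0 x'} with hS
  have hae : ∀ᵐ x ∂ρ, x ∈ S := by
    filter_upwards [hK, hTL, h0] with x h1 h2 h3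
    exact ⟨h1, h2, h3⟩
  obtain ⟨x0, hx0⟩ := hae.exists
  haveI : Nonempty S := ⟨⟨x0, hx0⟩⟩
  set t : S → E d → ℝ := fun y x' => φ0 y + ⟪T y, x' - y⟫ with ht
  set φ : E d → ℝ := fun x' => ⨆ y : S, t y x' with hφ
  have hinner : ∀ (y : S) (w : E d), ⟪T y, w⟫ ≤ L * ‖w‖ := by
    intro y w
    calc ⟪T y, w⟫ ≤ ‖T y‖ * ‖w‖ := real_inner_le_norm _ _
      _ ≤ L * ‖w‖ := mul_le_mul_of_nonneg_right y.2.2.1 (norm_nonneg _)
  have hbdd : ∀ x', BddAbove (Set.range fun y : S => t y x') := by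
    intro x'
    refine ⟨φ0 x0 + L * ‖x' - x0‖, ?_⟩
    rintro _ ⟨y, rfl⟩
    have h1 := y.2.2.2 x0 hx0.1
    have h2 := hinner y (x' - x0)
    have h3 : ⟪T y, x' - (y : E d)⟫ = ⟪T y, x0 - (y : E d)⟫ + ⟪T y, x' - x0⟫ := by
      rw [← inner_add_right]; congr 1; abel
    simp only [ht]
    rw [h3]
    linarith
  have hle : ∀ (y : S) x', t y x' ≤ φ x' := fun y x' => le_ciSup (hbdd x') y
  have hshift : ∀ (y : S) (a b : E d), t y a = t y b + ⟪T y, a - b⟫ := by
    intro y a b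
    simp only [ht]
    have h3 : ⟪T y, a - (y : E d)⟫ = ⟪T y, b - (y : E d)⟫ + ⟪T y, a - b⟫ := by
      rw [← inner_add_right]; congr 1; abel
    rw [h3]; ring
  refine ⟨φ, ?_, ?_, ?_⟩
  · apply LipschitzWith.of_le_add_mul
    intro a b
    apply ciSup_le
    intro y
    rw [hshift y a b, dist_eq_norm]
    have := hle y b
    have := hinner y (a - b)
    linarith
  · intro x v
    have key : φ x ≤ (φ (x + v) + φ (x - v)) / 2 := by
      apply ciSup_le
      intro y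
      have h1 := hshift y (x + v) x
      have h2 := hshift y (x - v) x
      have e1 : x + v - x = v := by abel
      have e2 : x - v - x = -v := by abel
      rw [e1] at h1
      rw [e2, inner_neg_right] at h2
      have h3 := hle y (x + v)
      have h4 := hle y (x - v)
      linarith
    linarith
  · filter_upwards [hae] with x hx x'
    have hx1 : φ x ≤ φ0 x := by
      apply ciSup_le
      intro y
      exact y.2.2.2 x hx.1
    have hx2 := hle ⟨x, hx⟩ x'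
    simp only [ht] at hx2
    linarith

end Vale.Agent.Lib.P074
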