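import Vale.Agent.Lib.P074S.Unif
import Vale.Agent.Lib.P074S.Reg
import Vale.Agent.Lib.P074S.Conj
import Vale.Agent.Lib.P074S.Gap
import Vale.Agent.Lib.P074S.Point
import Vale.Agent.Lib.P074S.Diff

open MeasureTheory
open scoped ENNReal NNReal RealInnerProductSpace

namespace Vale.Agent.Lib.P074

variable {d : ℕ}

/-- The geometric constant `vol(ball(R+2)) / vol K`. -/
noncomputable def Vc (K : Set (E d)) (R : ℝ≥0) : ℝ :=
  (volume K).toReal⁻¹ * (volume (Metric.closedBall (0 : E d) ((R : ℝ) + 2))).toReal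

/-- A measurable function which is almost everywhere bounded is integrable for a probability
measure. -/
theorem integrable_of_ae_bound {ρ : Measure (E d)} [IsProbabilityMeasure ρ] {g : E d → ℝ}
    (hg : Measurable g) (C : ℝ) (hC : ∀ᵐ x ∂ρ, ‖g x‖ ≤ C) : Integrable g ρ :=
  Integrable.of_bound hg.aestronglyMeasurable C hC

/-- TASK L1. Get global potentials `φ0, φ1` (Reg) for `T, S`, conjugates `ψ0, ψ1` (Conj, radius `R`),
`f = ψ0 - ψ1` (Lipschitz with constant `R + R`). For a.e. `x`: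
`s ‖S x - T x‖ ≤ d (φ0 x + ψ0 (S x) - ⟪x, S x⟫) + Σ_i Δ²φ0 x` (Point with `t = T x`, `y = S x`)
`≤ d (f (S x) - f (T x)) + Σ_i Δ²φ0 x`, because `φ1 x + ψ1 (T x) - ⟪x, T x⟫ ≥ 0`,
`φ0 x + ψ0 (T x) = ⟪x, T x⟫`, `φ1 x + ψ1 (S x) = ⟪x, S x⟫`. Integrate (Gap, Diff, integral_unif). -/
theorem l1_bound {K : Set (E d)} (hK : IsCompact K) (hint : (interior K).Nonempty) (R L : ℝ≥0)
    (hKR : ∀ x ∈ K, ‖x‖ + 1 ≤ R) {μ ν : Measure (E d)} {T S : E d → E d}
    (hT : IsBrenierMap K μ T) (hS : IsBrenierMap K ν S)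
    (hTL : ∀ᵐ x ∂(unif K), ‖T x‖ ≤ L) (hSL : ∀ᵐ x ∂(unif K), ‖S x‖ ≤ L)
    (π : Measure (E d × E d)) (h1 : π.map Prod.fst = μ) (h2 : π.map Prod.snd = ν)
    (s : ℝ) (hs0 : 0 < s) (hs1 : s ≤ 1) :
    s * ∫ x, ‖S x - T x‖ ∂(unif K) ≤ (d * (2 * R)) * ∫ p, ‖p.1 - p.2‖ ∂π
      + (d * (L * Vc K R)) * s ^ 2 := by
  haveI : IsProbabilityMeasure (unif K) := isProbabilityMeasure_unif hK hint
  obtain ⟨hTm, hTμ, φT, hφT⟩ := hT
  obtain ⟨hSm, hSν, φS, hφS⟩ := hS
  have hmem := ae_mem_unif hK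
  obtain ⟨φ0, hφ0L, hφ0mid, hφ0sub⟩ := exists_global_potential hmem hTL φT hφT
  obtain ⟨φ1, hφ1L, _, hφ1sub⟩ := exists_global_potential hmem hSL φS hφS
  obtain ⟨ψ0, hψ0L, hψ0c, hψ0e⟩ := exists_conjugate φ0 L R hφ0L
  obtain ⟨ψ1, hψ1L, hψ1c, hψ1e⟩ := exists_conjugate φ1 L R hφ1L
  obtain ⟨f, hf⟩ : ∃ f : E d → ℝ, f = fun y => ψ0 y - ψ1 y := ⟨_, rfl⟩
  have hfL : LipschitzWith (R + R) f := by
    rw [hf]; exact hψ0L.sub hψ1L
  obtain ⟨D, hD⟩ : ∃ D : Fin d → E d → ℝ, D = fun i x =>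
      φ0 (x + EuclideanSpace.single i s) + φ0 (x - EuclideanSpace.single i s) - 2 * φ0 x :=
    ⟨_, rfl⟩
  have hnorm : ∀ i : Fin d, ‖(EuclideanSpace.single i s : E d)‖ = s := by
    intro i
    rw [EuclideanSpace.norm_single, Real.norm_eq_abs, abs_of_pos hs0]
  -- pointwise inequality
  have hpt : ∀ᵐ x ∂(unif K),
      s * ‖S x - T x‖ ≤ d * (f (S x) - f (T x)) + ∑ i : Fin d, D i x := by
    filter_upwards [hmem, hφ0sub, hφ1sub] with x hxK h0 h1'
    have hxR : ‖x‖ ≤ R := by have := hKR x hxK; linarith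
    have hp := pointwise_lower φ0 ψ0 R x (T x) (S x) s hs0.le hψ0c
      (by have := hKR x hxK; linarith) h0
    have e0 := hψ0e x (T x) hxR h0
    have e1 := hψ1e x (S x) hxR h1'
    have e2 := hψ1c x (T x) hxR
    have hle : φ0 x + ψ0 (S x) - ⟪x, S x⟫ ≤ f (S x) - f (T x) := by
      rw [hf]
      simp only
      linarith
    have hd0 : (0 : ℝ) ≤ d := Nat.cast_nonneg d
    have := mul_le_mul_of_nonneg_left hle hd0
    rw [hD]
    simp only
    linarith
  -- integrability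
  have hbd : ∀ᵐ x ∂(unif K), ‖S x - T x‖ ≤ L + L := by
    filter_upwards [hTL, hSL] with x h3 h4
    exact le_trans (norm_sub_le _ _) (by linarith)
  have hi1 : Integrable (fun x => ‖S x - T x‖) (unif K) := by
    apply integrable_of_ae_bound (hSm.sub hTm).norm (L + L)
    filter_upwards [hbd] with x hx
    rwa [norm_norm]
  have hi2 : Integrable (fun x => f (S x) - f (T x)) (unif K) := by
    apply integrable_of_ae_bound
      ((hfL.continuous.measurable.comp hSm).sub (hfL.continuous.measurable.comp hTm))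
      (((R + R : ℝ≥0) : ℝ) * (L + L))
    filter_upwards [hbd] with x hx
    have := hfL.dist_le_mul (S x) (T x)
    rw [Real.dist_eq, dist_eq_norm] at this
    rw [Real.norm_eq_abs]
    exact le_trans this (mul_le_mul_of_nonneg_left hx (NNReal.coe_nonneg _))
  have hDm : ∀ i, Measurable (D i) := by
    intro i
    rw [hD]
    have hc : Continuous φ0 := hφ0L.continuous
    exact (by fun_prop : Continuous fun x : E d =>
      φ0 (x + EuclideanSpace.single i s) + φ0 (x - EuclideanSpace.single i s) - 2 * φ0 x).measurable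
  have hi3 : ∀ i, Integrable (D i) (unif K) := by
    intro i
    apply integrable_of_ae_bound (hDm i) ((L : ℝ) * s + L * s)
    refine Filter.Eventually.of_forall fun x => ?_
    rw [hD]
    simp only
    have a1 := hφ0L.dist_le_mul (x + EuclideanSpace.single i s) x
    have a2 := hφ0L.dist_le_mul (x - EuclideanSpace.single i s) x
    rw [Real.dist_eq, dist_eq_norm] at a1 a2
    have b1 : x + EuclideanSpace.single i s - x = EuclideanSpace.single i s := by abel
    have b2 : x - EuclideanSpace.single i s - x = -EuclideanSpace.single i s := by abel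
    rw [b1, hnorm] at a1
    rw [b2, norm_neg, hnorm] at a2
    rw [Real.norm_eq_abs]
    have e : φ0 (x + EuclideanSpace.single i s) + φ0 (x - EuclideanSpace.single i s) - 2 * φ0 x
        = (φ0 (x + EuclideanSpace.single i s) - φ0 x)
          + (φ0 (x - EuclideanSpace.single i s) - φ0 x) := by ring
    rw [e]
    exact le_trans (abs_add_le _ _) (add_le_add a1 a2)
  -- integrate
  have hint1 : ∫ x, s * ‖S x - T x‖ ∂(unif K)
      ≤ ∫ x, (d * (f (S x) - f (T x)) + ∑ i : Fin d, D i x) ∂(unif K) := by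
    apply integral_mono_ae (hi1.const_mul s) _ hpt
    exact (hi2.const_mul _).add (integrable_finset_sum _ fun i _ => hi3 i)
  rw [integral_const_mul, integral_add (hi2.const_mul _)
    (integrable_finset_sum _ fun i _ => hi3 i), integral_const_mul,
    integral_finset_sum _ fun i _ => hi3 i] at hint1
  have hgap := gap_le hTm hSm hTμ hSν f (R + R) L hfL hTL hSL π h1 h2
  have hR0 : (0 : ℝ) ≤ R := NNReal.coe_nonneg R
  have hDi : ∀ i : Fin d, ∫ x, D i x ∂(unif K) ≤ (L * Vc K R) * s ^ 2 := by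
    intro i
    rw [integral_unif]
    have := integral_second_diff_le φ0 L hφ0L hφ0mid K hK.measurableSet R hR0
      (fun x hx => by have := hKR x hx; linarith) (EuclideanSpace.single i s)
      (by rw [hnorm]; exact hs1)
    rw [hnorm] at this
    have hv : (0 : ℝ) ≤ (volume K).toReal⁻¹ := inv_nonneg.2 ENNReal.toReal_nonneg
    have h3 := mul_le_mul_of_nonneg_left this hv
    rw [hD]
    simp only
    refine le_trans h3 (le_of_eq ?_)
    unfold Vc
    ring
  have hsum : ∑ i : Fin d, ∫ x, D i x ∂(unif K) ≤ d * ((L * Vc K R) * s ^ 2) := by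
    calc ∑ i : Fin d, ∫ x, D i x ∂(unif K) ≤ ∑ _i : Fin d, (L * Vc K R) * s ^ 2 :=
          Finset.sum_le_sum fun i _ => hDi i
      _ = d * ((L * Vc K R) * s ^ 2) := by
          rw [Finset.sum_const, Finset.card_univ, Fintype.card_fin, nsmul_eq_mul]
  have hd0 : (0 : ℝ) ≤ d := Nat.cast_nonneg d
  have hg2 := mul_le_mul_of_nonneg_left hgap hd0
  have e3 : (((R + R : ℝ≥0) : ℝ)) = 2 * R := by push_cast; ring
  rw [e3] at hg2
  calc s * ∫ x, ‖S x - T x‖ ∂(unif K)
      ≤ d * ∫ x, (f (S x) - f (T x)) ∂(unif K) + ∑ i : Fin d, ∫ x, D i x ∂(unif K) := hint1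
    _ ≤ d * (2 * R * ∫ p, ‖p.1 - p.2‖ ∂π) + d * ((L * Vc K R) * s ^ 2) := add_le_add hg2 hsum
    _ = _ := by ring

end Vale.Agent.Lib.P074
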