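import Mathlib

namespace Vale.Agent.Lib.P074

/-- Optimisation in `s` (take `s = √W` if `0 < W ≤ 1`; `s → 0` if `W = 0`). -/
theorem optimise (A W a b c : ℝ) (hA : A ≤ c) (hc : 0 ≤ c) (ha : 0 ≤ a) (hb : 0 ≤ b)
    (hW : 0 ≤ W) (h : ∀ s, 0 < s → s ≤ 1 → s * A ≤ a * W + b * s ^ 2) :
    A ≤ (a + b + c) * Real.sqrt W := by
  rcases hW.eq_or_lt with h0 | hpos
  · -- W = 0
    subst h0
    simp only [Real.sqrt_zero, mul_zero]
    by_contra hcon
    rw [not_le] at hcon
    set s : ℝ := min 1 (A / (2 * (b + 1))) with hs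
    have hb1 : 0 < 2 * (b + 1) := by linarith
    have hspos : 0 < s := lt_min one_pos (div_pos hcon hb1)
    have hs1 : s ≤ 1 := min_le_left _ _
    have hs2 : s ≤ A / (2 * (b + 1)) := min_le_right _ _
    have h3 := h s hspos hs1
    rw [le_div_iff₀ hb1] at hs2
    have h4 : s * A ≤ b * s * s := by nlinarith
    have h5 : A ≤ b * s := by
      have : s * A ≤ s * (b * s) := by nlinarith
      exact le_of_mul_le_mul_left this hspos
    nlinarith
  · have hsq : 0 < Real.sqrt W := Real.sqrt_pos.2 hpos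
    have hsq2 : Real.sqrt W ^ 2 = W := Real.sq_sqrt hW
    rcases le_or_gt W 1 with h1 | h1
    · have hs1 : Real.sqrt W ≤ 1 := by
        have := Real.sqrt_le_sqrt h1
        rwa [Real.sqrt_one] at this
      have h3 := h (Real.sqrt W) hsq hs1
      rw [hsq2] at h3
      have h4 : Real.sqrt W * A ≤ Real.sqrt W * ((a + b) * Real.sqrt W) := by
        have : Real.sqrt W * ((a + b) * Real.sqrt W) = (a + b) * Real.sqrt W ^ 2 := by ring
        rw [this, hsq2]; linarith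
      have h5 : A ≤ (a + b) * Real.sqrt W := le_of_mul_le_mul_left h4 hsq
      have h6 : 0 ≤ c * Real.sqrt W := mul_nonneg hc hsq.le
      nlinarith
    · have hs1 : 1 ≤ Real.sqrt W := by
        rw [Real.one_le_sqrt]; exact h1.le
      have h6 : c ≤ c * Real.sqrt W := le_mul_of_one_le_right hc hs1
      have h7 : 0 ≤ (a + b) * Real.sqrt W := mul_nonneg (add_nonneg ha hb) hsq.le
      nlinarith

open scoped ENNReal NNReal in
/-- Passing to the infimum. -/
theorem le_mul_iInf_rpow {ι : Sort*} (f : ι → ℝ≥0∞) (a : ℝ≥0∞) (C : ℝ≥0) (hC : C ≠ 0) (r : ℝ)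
    (hr : 0 < r) (h : ∀ i, a ≤ C * f i ^ r) : a ≤ C * (⨅ i, f i) ^ r := by
  have hC0 : (C : ℝ≥0∞) ≠ 0 := by exact_mod_cast hC
  have hCt : (C : ℝ≥0∞) ≠ ∞ := ENNReal.coe_ne_top
  have h1 : ∀ i, (a / C) ^ (1 / r) ≤ f i := by
    intro i
    have h2 : a / C ≤ f i ^ r := by
      rw [ENNReal.div_le_iff_le_mul (Or.inl hC0) (Or.inl hCt), mul_comm]
      exact h i
    have h3 := ENNReal.rpow_le_rpow h2 (show 0 ≤ 1 / r by positivity)
    rwa [← ENNReal.rpow_mul, mul_one_div_cancel hr.ne', ENNReal.rpow_one] at h3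
  have h4 : (a / C) ^ (1 / r) ≤ ⨅ i, f i := le_iInf h1
  have h5 := ENNReal.rpow_le_rpow h4 hr.le
  rw [← ENNReal.rpow_mul, one_div_mul_cancel hr.ne', ENNReal.rpow_one] at h5
  rw [ENNReal.div_le_iff_le_mul (Or.inl hC0) (Or.inl hCt), mul_comm] at h5
  exact h5

end Vale.Agent.Lib.P074
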