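import Vale.Agent.Lib.P074S.LOne
import Vale.Agent.Lib.P074S.Opt

open MeasureTheory
open scoped ENNReal NNReal RealInnerProductSpace

namespace Vale.Agent.Lib.P074

variable {d : ℕ}

/-- The constant of the squared `L²` bound. -/
noncomputable def Cc (K : Set (E d)) (R L : ℝ≥0) : ℝ :=
  2 * L * (d * (2 * R) + d * (L * Vc K R) + 2 * L)

theorem Cc_nonneg (K : Set (E d)) (R L : ℝ≥0) : 0 ≤ Cc K R L := by
  unfold Cc Vc
  positivity

/-- TASK L2. From `l1_bound` and `optimise` (with `A = ∫ ‖S - T‖ ≤ c = 2 L`), then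
`‖T x - S x‖ ^ 2 ≤ 2 L ‖S x - T x‖` a.e. -/
theorem l2sq_bound {K : Set (E d)} (hK : IsCompact K) (hint : (interior K).Nonempty) (R L : ℝ≥0)
    (hKR : ∀ x ∈ K, ‖x‖ + 1 ≤ R) {μ ν : Measure (E d)} {T S : E d → E d}
    (hT : IsBrenierMap K μ T) (hS : IsBrenierMap K ν S)
    (hTL : ∀ᵐ x ∂(unif K), ‖T x‖ ≤ L) (hSL : ∀ᵐ x ∂(unif K), ‖S x‖ ≤ L)
    (π : Measure (E d × E d)) (h1 : π.map Prod.fst = μ) (h2 : π.map Prod.snd = ν) :
    ∫ x, ‖T x - S x‖ ^ 2 ∂(unif K) ≤ Cc K R L * Real.sqrt (∫ p, ‖p.1 - p.2‖ ∂π) := by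
  have := isProbabilityMeasure_unif hK hint
  have hmeas : AEStronglyMeasurable (fun x => ‖S x - T x‖) (unif K) :=
    ((hS.1.sub hT.1).norm).aestronglyMeasurable
  have hbd : ∀ᵐ x ∂(unif K), ‖S x - T x‖ ≤ 2 * (L : ℝ) := by
    filter_upwards [hTL, hSL] with x hx1 hx2
    calc ‖S x - T x‖ ≤ ‖S x‖ + ‖T x‖ := norm_sub_le _ _
      _ ≤ 2 * (L : ℝ) := by linarith
  have hint1 : Integrable (fun x => ‖S x - T x‖) (unif K) := by
    refine Integrable.of_bound hmeas (2 * (L : ℝ)) ?_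
    filter_upwards [hbd] with x hx
    simpa using hx
  have hA : ∫ x, ‖S x - T x‖ ∂(unif K) ≤ 2 * (L : ℝ) := by
    have := integral_mono_ae hint1 (integrable_const (2 * (L : ℝ))) hbd
    simpa using this
  have hW : 0 ≤ ∫ p, ‖p.1 - p.2‖ ∂π := integral_nonneg (fun p => norm_nonneg _)
  have hVc : 0 ≤ Vc K R := by unfold Vc; positivity
  have hopt := optimise (∫ x, ‖S x - T x‖ ∂(unif K)) (∫ p, ‖p.1 - p.2‖ ∂π)
    (d * (2 * R)) (d * (L * Vc K R)) (2 * (L : ℝ)) hA (by positivity) (by positivity)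
    (by positivity) hW
    (fun s hs0 hs1 => l1_bound hK hint R L hKR hT hS hTL hSL π h1 h2 s hs0 hs1)
  have hsq : ∫ x, ‖T x - S x‖ ^ 2 ∂(unif K) ≤ ∫ x, 2 * (L : ℝ) * ‖S x - T x‖ ∂(unif K) := by
    refine integral_mono_of_nonneg (Filter.Eventually.of_forall (fun x => by positivity))
      (hint1.const_mul _) ?_
    filter_upwards [hbd] with x hx
    have h0 : 0 ≤ ‖S x - T x‖ := norm_nonneg _
    have : ‖T x - S x‖ = ‖S x - T x‖ := norm_sub_rev _ _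
    simp only [this]
    nlinarith
  rw [integral_const_mul] at hsq
  have hL : (0 : ℝ) ≤ 2 * (L : ℝ) := by positivity
  calc ∫ x, ‖T x - S x‖ ^ 2 ∂(unif K) ≤ 2 * (L : ℝ) * ∫ x, ‖S x - T x‖ ∂(unif K) := hsq
    _ ≤ 2 * (L : ℝ) * ((d * (2 * R) + d * (L * Vc K R) + 2 * (L : ℝ))
          * Real.sqrt (∫ p, ‖p.1 - p.2‖ ∂π)) := mul_le_mul_of_nonneg_left hopt hL
    _ = Cc K R L * Real.sqrt (∫ p, ‖p.1 - p.2‖ ∂π) := by unfold Cc; ring

end Vale.Agent.Lib.P074
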