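import Vale.Agent.Lib.P074S.Defs

open MeasureTheory Metric Filter Topology
open scoped ENNReal NNReal RealInnerProductSpace

namespace Vale.Agent.Lib.P074

variable {d : ℕ}

/-- `x` is a Lebesgue point of `T` for balls with moving centres. -/
def IsLebPt (T : E d → E d) (x : E d) : Prop :=
  ∀ (C : ℕ) (w : ℝ → E d), (∀ᶠ ε in 𝓝[>] (0 : ℝ), x ∈ closedBall (w ε) (C * ε)) →
    Tendsto (fun ε => ⨍ y in closedBall (w ε) ε, T y) (𝓝[>] (0 : ℝ)) (𝓝 (T x))

/-- TASK X5: `IsUnifLocDoublingMeasure.ae_tendsto_average` (with `δ = id`, `l = 𝓝[>] 0`) for each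
`C : ℕ`, and `ae_all_iff`. A bounded measurable map is locally integrable. -/
theorem ae_isLebPt {T : E d → E d} (hT : Measurable T) {L : ℝ} (hTL : ∀ x, ‖T x‖ ≤ L) :
    ∀ᵐ x, IsLebPt T x := by
  have hloc : LocallyIntegrable T volume := by
    intro x
    refine ⟨Metric.ball x 1, Metric.ball_mem_nhds x one_pos, ?_⟩
    refine Measure.integrableOn_of_bounded (M := L) measure_ball_lt_top.ne
      hT.aestronglyMeasurable ?_
    exact Filter.Eventually.of_forall hTL
  have h : ∀ C : ℕ, ∀ᵐ x : E d, ∀ (w : ℝ → E d),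
      (∀ᶠ ε in 𝓝[>] (0 : ℝ), x ∈ closedBall (w ε) (C * ε)) →
      Tendsto (fun ε => ⨍ y in closedBall (w ε) ε, T y) (𝓝[>] (0 : ℝ)) (𝓝 (T x)) := by
    intro C
    filter_upwards [IsUnifLocDoublingMeasure.ae_tendsto_average (μ := (volume : Measure (E d)))
      hloc (C : ℝ)] with x hx w hw
    exact hx w id tendsto_id hw
  rw [← ae_all_iff] at h
  filter_upwards [h] with x hx C w hw
  exact hx C w hw

/-- TASK X5: `setAverage_eq`, `integral_inner`, `Measure.addHaar_closedBall_center`, continuity of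
the inner product. -/
theorem tendsto_avg_inner {T : E d → E d} (hT : Measurable T) {L : ℝ} (hTL : ∀ x, ‖T x‖ ≤ L)
    {x : E d} (hx : IsLebPt T x) (C : ℕ) (w : ℝ → E d)
    (hw : ∀ᶠ ε in 𝓝[>] (0 : ℝ), x ∈ closedBall (w ε) (C * ε)) (a : ℝ → E d) (a0 : E d)
    (ha : Tendsto a (𝓝[>] (0 : ℝ)) (𝓝 a0)) :
    Tendsto (fun ε => (volume (closedBall (0 : E d) ε)).toReal⁻¹ *
      ∫ u in closedBall (w ε) ε, ⟪T u, a ε⟫) (𝓝[>] (0 : ℝ)) (𝓝 ⟪T x, a0⟫) := by
  have hint : ∀ ε : ℝ, IntegrableOn T (closedBall (w ε) ε) volume := by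
    intro ε
    refine Measure.integrableOn_of_bounded (M := L) measure_closedBall_lt_top.ne
      hT.aestronglyMeasurable ?_
    exact Filter.Eventually.of_forall hTL
  have heq : ∀ ε : ℝ, (volume (closedBall (0 : E d) ε)).toReal⁻¹ *
      ∫ u in closedBall (w ε) ε, ⟪T u, a ε⟫ = ⟪⨍ y in closedBall (w ε) ε, T y, a ε⟫ := by
    intro ε
    have hv : volume (closedBall (w ε) ε) = volume (closedBall (0 : E d) ε) :=
      Measure.addHaar_closedBall_center volume (w ε) ε
    rw [setAverage_eq, measureReal_def, hv, real_inner_smul_left]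
    congr 1
    have h1 : ∫ u in closedBall (w ε) ε, ⟪T u, a ε⟫ = ∫ u in closedBall (w ε) ε, ⟪a ε, T u⟫ := by
      refine integral_congr_ae (Filter.Eventually.of_forall fun u => ?_)
      exact real_inner_comm _ _
    rw [h1, integral_inner (hint ε), real_inner_comm]
  simp_rw [heq]
  exact (hx C w hw).inner ha

end Vale.Agent.Lib.P074
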