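import Vale.Agent.Lib.P074S.Unif
import Vale.Agent.Lib.P074S.Reg
import Vale.Agent.Lib.P074S.Conj

open MeasureTheory
open scoped ENNReal NNReal RealInnerProductSpace

namespace Vale.Agent.Lib.P074

variable {d : ℕ}

/-- The cost of a bounded map is the `ofReal` of a Bochner integral. -/
theorem mapCost_eq_ofReal_aux {ρ : Measure (E d)} [IsProbabilityMeasure ρ] {S : E d → E d}
    (hS : Measurable S) (R L : ℝ≥0) (hR : ∀ᵐ x ∂ρ, ‖x‖ ≤ R) (hL : ∀ᵐ x ∂ρ, ‖S x‖ ≤ L) :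
    Integrable (fun x => ‖x - S x‖ ^ 2) ρ ∧
      mapCost ρ S = ENNReal.ofReal (∫ x, ‖x - S x‖ ^ 2 ∂ρ) := by
  have hmeas : Measurable fun x => ‖x - S x‖ ^ 2 := ((measurable_id.sub hS).norm).pow_const 2
  have hint : Integrable (fun x => ‖x - S x‖ ^ 2) ρ := by
    refine Integrable.of_bound hmeas.aestronglyMeasurable (((R : ℝ) + L) ^ 2) ?_
    filter_upwards [hR, hL] with x h1 h2
    rw [Real.norm_of_nonneg (by positivity)]
    apply pow_le_pow_left₀ (norm_nonneg _)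
    calc ‖x - S x‖ ≤ ‖x‖ + ‖S x‖ := norm_sub_le _ _
      _ ≤ (R : ℝ) + L := by linarith
  refine ⟨hint, ?_⟩
  unfold mapCost
  exact (ofReal_integral_eq_lintegral_ofReal hint
    (Filter.Eventually.of_forall fun x => by positivity)).symm

/-- TASK M1. Brenier maps are optimal (easy direction). With the global potential `φ` and its
conjugate `ψ` over a ball containing `K`: for any competitor `S`,
`∫ ⟪x, S x⟫ ≤ ∫ φ + ∫ ψ (S x) = ∫ φ + ∫ ψ dμ = ∫ φ + ∫ ψ (T x) = ∫ ⟪x, T x⟫`, and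
`∫ ‖S x‖² = ∫ ‖y‖² dμ = ∫ ‖T x‖²`. -/
theorem IsBrenierMap.isOptMap {K : Set (E d)} (hK : IsCompact K) (hint : (interior K).Nonempty)
    {Y : Set (E d)} (hY : IsCompact Y) {μ : Measure (E d)} (hμ : μ Yᶜ = 0) {T : E d → E d}
    (hT : IsBrenierMap K μ T) : IsOptMap (unif K) μ T := by
  obtain ⟨hTm, hTμ, φ0, h0⟩ := hT
  have := isProbabilityMeasure_unif hK hint
  refine ⟨hTm, hTμ, fun S hSm hSμ => ?_⟩
  obtain ⟨R0, hR0⟩ := hK.isBounded.exists_norm_le
  obtain ⟨L0, hL0⟩ := hY.isBounded.exists_norm_le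
  set R : ℝ≥0 := Real.toNNReal R0 with hRdef
  set L : ℝ≥0 := Real.toNNReal L0 with hLdef
  have hKR : ∀ᵐ x ∂(unif K), ‖x‖ ≤ R :=
    (ae_mem_unif hK).mono fun x hx => (hR0 x hx).trans (Real.le_coe_toNNReal _)
  have hTY := ae_map_of_ae hTm hTμ hY.measurableSet hμ
  have hSY := ae_map_of_ae hSm hSμ hY.measurableSet hμ
  have hTL : ∀ᵐ x ∂(unif K), ‖T x‖ ≤ L :=
    hTY.mono fun x hx => (hL0 _ hx).trans (Real.le_coe_toNNReal _)
  have hSL : ∀ᵐ x ∂(unif K), ‖S x‖ ≤ L :=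
    hSY.mono fun x hx => (hL0 _ hx).trans (Real.le_coe_toNNReal _)
  obtain ⟨φ, hφL, -, hφ⟩ := exists_global_potential (ae_mem_unif hK) hTL φ0 h0
  obtain ⟨ψ, hψL, hY1, hY2⟩ := exists_conjugate φ L R hφL
  let g : E d → ℝ := fun x => ‖x‖ ^ 2 - 2 * φ x
  let hh : E d → ℝ := fun y => ‖y‖ ^ 2 - 2 * ψ y
  have hgc : Continuous g := (continuous_norm.pow 2).sub (continuous_const.mul hφL.continuous)
  have hhc : Continuous hh := (continuous_norm.pow 2).sub (continuous_const.mul hψL.continuous)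
  have eT : ∀ᵐ x ∂(unif K), ‖x - T x‖ ^ 2 = g x + hh (T x) := by
    filter_upwards [hKR, hφ] with x h1 h2
    have := hY2 x (T x) h1 h2
    simp only [g, hh]
    rw [norm_sub_sq_real]
    linarith
  have eS : ∀ᵐ x ∂(unif K), g x + hh (S x) ≤ ‖x - S x‖ ^ 2 := by
    filter_upwards [hKR] with x h1
    have := hY1 x (S x) h1
    simp only [g, hh]
    rw [norm_sub_sq_real]
    linarith
  have hgi : Integrable g (unif K) := by
    unfold unif
    apply Integrable.smul_measure (hgc.continuousOn.integrableOn_compact hK)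
    exact ENNReal.inv_ne_top.mpr (volume_pos_of_interior hint).ne'
  obtain ⟨M, hM⟩ := hY.exists_bound_of_continuousOn hhc.continuousOn
  have hTi : Integrable (fun x => hh (T x)) (unif K) :=
    Integrable.of_bound (hhc.measurable.comp hTm).aestronglyMeasurable M
      (hTY.mono fun x hx => hM _ hx)
  have hSi : Integrable (fun x => hh (S x)) (unif K) :=
    Integrable.of_bound (hhc.measurable.comp hSm).aestronglyMeasurable M
      (hSY.mono fun x hx => hM _ hx)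
  have hmapT : ∫ x, hh (T x) ∂(unif K) = ∫ y, hh y ∂μ := by
    rw [← hTμ, integral_map hTm.aemeasurable hhc.aestronglyMeasurable]
  have hmapS : ∫ x, hh (S x) ∂(unif K) = ∫ y, hh y ∂μ := by
    rw [← hSμ, integral_map hSm.aemeasurable hhc.aestronglyMeasurable]
  obtain ⟨iT, cT⟩ := mapCost_eq_ofReal_aux hTm R L hKR hTL
  obtain ⟨iS, cS⟩ := mapCost_eq_ofReal_aux hSm R L hKR hSL
  rw [cT, cS]
  apply ENNReal.ofReal_le_ofReal
  calc ∫ x, ‖x - T x‖ ^ 2 ∂(unif K) = ∫ x, (g x + hh (T x)) ∂(unif K) := integral_congr_ae eT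
    _ = ∫ x, g x ∂(unif K) + ∫ x, hh (T x) ∂(unif K) := integral_add hgi hTi
    _ = ∫ x, g x ∂(unif K) + ∫ x, hh (S x) ∂(unif K) := by rw [hmapT, hmapS]
    _ = ∫ x, (g x + hh (S x)) ∂(unif K) := (integral_add hgi hSi).symm
    _ ≤ ∫ x, ‖x - S x‖ ^ 2 ∂(unif K) := integral_mono_ae (hgi.add hSi) iS eS

end Vale.Agent.Lib.P074
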