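import Vale.Agent.Lib.P074S.Unif
import Vale.Agent.Lib.P074S.Reg
import Vale.Agent.Lib.P074S.Conj

open MeasureTheory
open scoped ENNReal NNReal RealInnerProductSpace

namespace Vale.Agent.Lib.P074

variable {d : ℕ}

/-- the cost as a real integral, for essentially bounded maps -/
lemma mapCost_eq_ofReal {ρ : Measure (E d)} [IsProbabilityMeasure ρ] {T : E d → E d}
    (hT : Measurable T) {R L : ℝ} (hx : ∀ᵐ x ∂ρ, ‖x‖ ≤ R) (hTL : ∀ᵐ x ∂ρ, ‖T x‖ ≤ L) :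
    Integrable (fun x => ‖x - T x‖ ^ 2) ρ ∧
      mapCost ρ T = ENNReal.ofReal (∫ x, ‖x - T x‖ ^ 2 ∂ρ) := by
  have hm : Measurable (fun x => ‖x - T x‖ ^ 2) := by fun_prop
  have hi : Integrable (fun x => ‖x - T x‖ ^ 2) ρ := by
    apply Integrable.of_bound hm.aestronglyMeasurable ((R + L) ^ 2)
    filter_upwards [hx, hTL] with x h1 h2
    rw [Real.norm_eq_abs, abs_of_nonneg (by positivity)]
    have : ‖x - T x‖ ≤ R + L := (norm_sub_le _ _).trans (add_le_add h1 h2)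
    exact pow_le_pow_left₀ (norm_nonneg _) this 2
  refine ⟨hi, ?_⟩
  unfold mapCost
  rw [ofReal_integral_eq_lintegral_ofReal hi (Filter.Eventually.of_forall fun x => by positivity)]

/-- TASK M2. If `μ` has one Brenier map `T0`, every optimal map `T` for `μ` is a Brenier map
(with the same potential): `∫ (φ x + ψ (T x) - ⟪x, T x⟫) ≤ ∫ (φ x + ψ (T0 x) - ⟪x, T0 x⟫) = 0` and the
integrand is nonnegative, so it vanishes a.e.; then `φ x + ψ (T x) = ⟪x, T x⟫` gives the subgradient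
inequality on `K` since `⟪x', T x⟫ ≤ φ x' + ψ (T x)`. -/
theorem IsOptMap.isBrenierMap_of_exists {K : Set (E d)} (hK : IsCompact K)
    (hint : (interior K).Nonempty)
    {Y : Set (E d)} (hY : IsCompact Y) {μ : Measure (E d)} (hμ : μ Yᶜ = 0) {T0 T : E d → E d}
    (hT0 : IsBrenierMap K μ T0) (hT : IsOptMap (unif K) μ T) : IsBrenierMap K μ T := by
  obtain ⟨hT0m, hT0μ, φ0, hφ0⟩ := hT0
  obtain ⟨hTm, hTμ, hTopt⟩ := hT
  have : IsProbabilityMeasure (unif K) := isProbabilityMeasure_unif hK hint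
  set ρ := unif K with hρ
  obtain ⟨R0, hR0⟩ := hK.isBounded.exists_norm_le
  obtain ⟨L0, hL0⟩ := hY.isBounded.exists_norm_le
  set R : ℝ≥0 := R0.toNNReal with hR
  set L : ℝ≥0 := L0.toNNReal with hL
  have hKR : ∀ x ∈ K, ‖x‖ ≤ R := fun x hx => (hR0 x hx).trans (Real.le_coe_toNNReal _)
  have hYL : ∀ y ∈ Y, ‖y‖ ≤ L := fun y hy => (hL0 y hy).trans (Real.le_coe_toNNReal _)
  have hxK : ∀ᵐ x ∂ρ, x ∈ K := ae_mem_unif hK
  have hxR : ∀ᵐ x ∂ρ, ‖x‖ ≤ (R : ℝ) := hxK.mono fun x hx => hKR x hx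
  have hT0Y : ∀ᵐ x ∂ρ, ‖T0 x‖ ≤ (L : ℝ) :=
    (ae_map_of_ae hT0m hT0μ hY.measurableSet hμ).mono fun x hx => hYL _ hx
  have hTY : ∀ᵐ x ∂ρ, ‖T x‖ ≤ (L : ℝ) :=
    (ae_map_of_ae hTm hTμ hY.measurableSet hμ).mono fun x hx => hYL _ hx
  obtain ⟨φ, hφL, -, hφ⟩ := exists_global_potential (L := L) hxK hT0Y φ0 hφ0
  obtain ⟨ψ, hψL, hYoung, hEq⟩ := exists_conjugate φ L R hφL
  -- integrability
  have bdd_int : ∀ (f : E d → ℝ) (C : ℝ), Measurable f → (∀ᵐ x ∂ρ, |f x| ≤ C) → Integrable f ρ :=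
    fun f C hf hC => Integrable.of_bound hf.aestronglyMeasurable C
      (hC.mono fun x hx => by rwa [Real.norm_eq_abs])
  have hφi : Integrable φ ρ := by
    apply bdd_int φ (|φ 0| + L * R) hφL.continuous.measurable
    filter_upwards [hxR] with x hx
    have h1 := hφL.dist_le_mul x 0
    rw [Real.dist_eq, dist_zero_right] at h1
    have h2 : |φ x| ≤ |φ 0| + |φ x - φ 0| := by
      have := abs_add_le (φ 0) (φ x - φ 0)
      simpa using this
    have h3 : (L : ℝ) * ‖x‖ ≤ L * R := mul_le_mul_of_nonneg_left hx L.2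
    linarith
  have hψcomp : ∀ S : E d → E d, Measurable S → (∀ᵐ x ∂ρ, ‖S x‖ ≤ (L : ℝ)) →
      Integrable (fun x => ψ (S x)) ρ := by
    intro S hS hSL
    apply bdd_int _ (|ψ 0| + R * L) (hψL.continuous.measurable.comp hS)
    filter_upwards [hSL] with x hx
    have h1 := hψL.dist_le_mul (S x) 0
    rw [Real.dist_eq, dist_zero_right] at h1
    have h2 : |ψ (S x)| ≤ |ψ 0| + |ψ (S x) - ψ 0| := by
      have := abs_add_le (ψ 0) (ψ (S x) - ψ 0)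
      simpa using this
    have h3 : (R : ℝ) * ‖S x‖ ≤ R * L := mul_le_mul_of_nonneg_left hx R.2
    show |ψ (S x)| ≤ _
    linarith
  have hipcomp : ∀ S : E d → E d, Measurable S → (∀ᵐ x ∂ρ, ‖S x‖ ≤ (L : ℝ)) →
      Integrable (fun x => ⟪x, S x⟫) ρ := by
    intro S hS hSL
    apply bdd_int _ (R * L) (by fun_prop)
    filter_upwards [hSL, hxR] with x hx hx'
    exact (abs_real_inner_le_norm _ _).trans (mul_le_mul hx' hx (norm_nonneg _) R.2)
  have hsqcomp : ∀ S : E d → E d, Measurable S → (∀ᵐ x ∂ρ, ‖S x‖ ≤ (L : ℝ)) →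
      Integrable (fun x => ‖S x‖ ^ 2) ρ := by
    intro S hS hSL
    apply bdd_int _ ((L : ℝ) ^ 2) (by fun_prop)
    filter_upwards [hSL] with x hx
    rw [abs_of_nonneg (by positivity)]
    exact pow_le_pow_left₀ (norm_nonneg _) hx 2
  have hxsq : Integrable (fun x : E d => ‖x‖ ^ 2) ρ := by
    apply bdd_int _ ((R : ℝ) ^ 2) (by fun_prop)
    filter_upwards [hxR] with x hx
    rw [abs_of_nonneg (by positivity)]
    exact pow_le_pow_left₀ (norm_nonneg _) hx 2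
  -- change of variables
  have cov : ∀ f : E d → ℝ, Measurable f → ∫ x, f (T x) ∂ρ = ∫ x, f (T0 x) ∂ρ := by
    intro f hf
    rw [← integral_map hTm.aemeasurable hf.aestronglyMeasurable,
      ← integral_map hT0m.aemeasurable hf.aestronglyMeasurable, hTμ, hT0μ]
  -- cost comparison
  have hcost : ∫ x, ‖x - T x‖ ^ 2 ∂ρ ≤ ∫ x, ‖x - T0 x‖ ^ 2 ∂ρ := by
    have h := hTopt T0 hT0m hT0μ
    rw [(mapCost_eq_ofReal hTm hxR hTY).2, (mapCost_eq_ofReal hT0m hxR hT0Y).2] at h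
    exact (ENNReal.ofReal_le_ofReal_iff (integral_nonneg fun x => by positivity)).1 h
  have expand : ∀ S : E d → E d, Measurable S → (∀ᵐ x ∂ρ, ‖S x‖ ≤ (L : ℝ)) →
      ∫ x, ‖x - S x‖ ^ 2 ∂ρ
        = (∫ x, ‖x‖ ^ 2 ∂ρ) - 2 * (∫ x, ⟪x, S x⟫ ∂ρ) + ∫ x, ‖S x‖ ^ 2 ∂ρ := by
    intro S hS hSL
    have : (fun x => ‖x - S x‖ ^ 2) = fun x => ‖x‖ ^ 2 - 2 * ⟪x, S x⟫ + ‖S x‖ ^ 2 := by
      funext x; exact norm_sub_sq_real _ _
    have h2 : Integrable (fun x => 2 * ⟪x, S x⟫) ρ := (hipcomp S hS hSL).const_mul 2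
    have hsub : Integrable (fun x => ‖x‖ ^ 2 - 2 * ⟪x, S x⟫) ρ := hxsq.sub h2
    rw [this, integral_add hsub (hsqcomp S hS hSL), integral_sub hxsq h2, integral_const_mul]
  have hip : ∫ x, ⟪x, T0 x⟫ ∂ρ ≤ ∫ x, ⟪x, T x⟫ ∂ρ := by
    rw [expand T hTm hTY, expand T0 hT0m hT0Y] at hcost
    have := cov (fun y => ‖y‖ ^ 2) (by fun_prop)
    linarith
  have hψeq : ∫ x, ψ (T x) ∂ρ = ∫ x, ψ (T0 x) ∂ρ := cov ψ hψL.continuous.measurable
  -- the gap functions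
  have hgap0 : ∫ x, (φ x + ψ (T0 x) - ⟪x, T0 x⟫) ∂ρ = 0 := by
    apply integral_eq_zero_of_ae
    filter_upwards [hφ, hxR] with x h1 h2
    have := hEq x (T0 x) h2 h1
    simp only [Pi.zero_apply]
    linarith
  have hgi : ∀ S : E d → E d, Measurable S → (∀ᵐ x ∂ρ, ‖S x‖ ≤ (L : ℝ)) →
      Integrable (fun x => φ x + ψ (S x) - ⟪x, S x⟫) ρ := fun S hS hSL =>
    (hφi.add (hψcomp S hS hSL)).sub (hipcomp S hS hSL)
  have hgsplit : ∀ S : E d → E d, Measurable S → (∀ᵐ x ∂ρ, ‖S x‖ ≤ (L : ℝ)) →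
      ∫ x, (φ x + ψ (S x) - ⟪x, S x⟫) ∂ρ
        = (∫ x, φ x ∂ρ) + (∫ x, ψ (S x) ∂ρ) - ∫ x, ⟪x, S x⟫ ∂ρ := by
    intro S hS hSL
    have hadd : Integrable (fun x => φ x + ψ (S x)) ρ := hφi.add (hψcomp S hS hSL)
    rw [integral_sub hadd (hipcomp S hS hSL), integral_add hφi (hψcomp S hS hSL)]
  have hgapT : ∫ x, (φ x + ψ (T x) - ⟪x, T x⟫) ∂ρ ≤ 0 := by
    rw [hgsplit T hTm hTY]
    rw [hgsplit T0 hT0m hT0Y] at hgap0
    linarith
  have hnonneg : 0 ≤ᵐ[ρ] fun x => φ x + ψ (T x) - ⟪x, T x⟫ := by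
    filter_upwards [hxR] with x hx
    have := hYoung x (T x) hx
    simp only [Pi.zero_apply]
    linarith
  have hzero : (fun x => φ x + ψ (T x) - ⟪x, T x⟫) =ᵐ[ρ] 0 := by
    rw [← integral_eq_zero_iff_of_nonneg_ae hnonneg (hgi T hTm hTY)]
    exact le_antisymm hgapT (integral_nonneg_of_ae hnonneg)
  refine ⟨hTm, hTμ, φ, ?_⟩
  filter_upwards [hzero] with x hx x' hx'
  simp only [Pi.zero_apply] at hx
  have h1 := hYoung x' (T x) (hKR x' hx')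
  rw [inner_sub_right, real_inner_comm x' (T x), real_inner_comm x (T x)]
  linarith

end Vale.Agent.Lib.P074
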