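import Vale.Agent.Lib.P074S.PotDefs

open MeasureTheory Filter Topology
open scoped ENNReal NNReal RealInnerProductSpace

namespace Vale.Agent.Lib.P074

variable {d : ℕ}

/-- TASK A6a. Pointwise algebra. Expand `‖p - q‖^2 = ‖p‖^2 - 2 ⟪p, q⟫ + ‖q‖^2`
(`norm_sub_sq_real`), and use `Equiv.sum_comp σ` for `∑ ‖u (σ i)‖^2 = ∑ ‖u i‖^2` and
`∑ ⟪a, u (σ i)⟫ = ∑ ⟪a, u i⟫`. -/
theorem sum_sq_perm {N : ℕ} (c u : Fin N → E d) (a : E d) (σ : Equiv.Perm (Fin N)) :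
    ∑ i, ‖c i + a - u (σ i)‖ ^ 2 =
      ∑ i, ‖c i + a - u i‖ ^ 2 + 2 * (∑ i, ⟪c i, u i⟫ - ∑ i, ⟪c i, u (σ i)⟫) := by
  have e1 : ∑ i, ‖u (σ i)‖ ^ 2 = ∑ i, ‖u i‖ ^ 2 := Equiv.sum_comp σ (fun i => ‖u i‖ ^ 2)
  have e2 : ∑ i, ⟪a, u (σ i)⟫ = ∑ i, ⟪a, u i⟫ := Equiv.sum_comp σ (fun i => ⟪a, u i⟫)
  simp only [norm_sub_sq_real, inner_add_left, Finset.sum_add_distrib, Finset.sum_sub_distrib,
    ← Finset.mul_sum, mul_add]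
  rw [e1, e2]
  ring

/-- TASK A6b. Perturbation of the values. -/
theorem sum_inner_perturb {N : ℕ} (c u y : Fin N → E d) (σ : Equiv.Perm (Fin N)) {ε : ℝ}
    (h : ∀ i, ‖u i - y i‖ ≤ ε) :
    ∑ i, ⟪c i, u i⟫ - ∑ i, ⟪c i, u (σ i)⟫ ≤
      ∑ i, ⟪c i, y i⟫ - ∑ i, ⟪c i, y (σ i)⟫ + 2 * ε * ∑ i, ‖c i‖ := by
  have key : ∀ i j, |⟪c i, u j⟫ - ⟪c i, y j⟫| ≤ ε * ‖c i‖ := by
    intro i j
    rw [← inner_sub_right]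
    refine (abs_real_inner_le_norm _ _).trans ?_
    rw [mul_comm]
    gcongr
    exact h j
  have h1 : ∑ i, ⟪c i, u i⟫ ≤ ∑ i, ⟪c i, y i⟫ + ε * ∑ i, ‖c i‖ := by
    rw [Finset.mul_sum, ← Finset.sum_add_distrib]
    apply Finset.sum_le_sum
    intro i _
    have := (abs_le.1 (key i i)).2
    linarith
  have h2 : ∑ i, ⟪c i, y (σ i)⟫ ≤ ∑ i, ⟪c i, u (σ i)⟫ + ε * ∑ i, ‖c i‖ := by
    rw [Finset.mul_sum, ← Finset.sum_add_distrib]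
    apply Finset.sum_le_sum
    intro i _
    have := (abs_le.1 (key i (σ i))).1
    linarith
  linarith

end Vale.Agent.Lib.P074
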