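import Vale.Agent.Lib.P074S.PotDefs

open MeasureTheory Filter Topology
open scoped ENNReal NNReal RealInnerProductSpace

namespace Vale.Agent.Lib.P074

variable {d : ℕ}

/-- TASK A6b2. Perturbation of points and values (used to remove injectivity). -/
theorem sum_inner_perturb2 {N : ℕ} (x c y u : Fin N → E d) (σ : Equiv.Perm (Fin N)) {ε : ℝ}
    (hε : 0 ≤ ε) (hε1 : ε ≤ 1)
    (hc : ∀ i, ‖c i - x i‖ ≤ ε) (hu : ∀ i, ‖u i - y i‖ ≤ ε)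
    (h : ∑ i, ⟪c i, u (σ i)⟫ ≤ ∑ i, ⟪c i, u i⟫) :
    ∑ i, ⟪x i, y (σ i)⟫ ≤ ∑ i, ⟪x i, y i⟫ + ε * (2 * ∑ i, (‖x i‖ + ‖y i‖ + 1)) := by
  have key : ∀ (p q p' q' : E d), ‖p' - p‖ ≤ ε → ‖q' - q‖ ≤ ε →
      |⟪p, q⟫ - ⟪p', q'⟫| ≤ ε * (‖p‖ + ‖q‖ + 1) := by
    intro p q p' q' hp hq
    have e : ⟪p, q⟫ - ⟪p', q'⟫ = -⟪p' - p, q⟫ - ⟪p, q' - q⟫ - ⟪p' - p, q' - q⟫ := by
      simp only [inner_sub_left, inner_sub_right]
      ring
    rw [e]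
    have h1 := abs_real_inner_le_norm (p' - p) q
    have h2 := abs_real_inner_le_norm p (q' - q)
    have h3 := abs_real_inner_le_norm (p' - p) (q' - q)
    have h1' : |⟪p' - p, q⟫| ≤ ε * ‖q‖ := h1.trans (by gcongr)
    have h2' : |⟪p, q' - q⟫| ≤ ‖p‖ * ε := h2.trans (by gcongr)
    have h3' : |⟪p' - p, q' - q⟫| ≤ ε * 1 := h3.trans (by
      have := norm_nonneg (p' - p)
      have := norm_nonneg (q' - q)
      nlinarith)
    rw [abs_le] at h1' h2' h3' ⊢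
    constructor <;> nlinarith [h1'.1, h1'.2, h2'.1, h2'.2, h3'.1, h3'.2]
  have hA : ∑ i, ⟪x i, y (σ i)⟫ ≤ ∑ i, ⟪c i, u (σ i)⟫ + ε * ∑ i, (‖x i‖ + ‖y i‖ + 1) := by
    have e1 : ∑ i, (‖x i‖ + ‖y i‖ + 1) = ∑ i, (‖x i‖ + ‖y (σ i)‖ + 1) := by
      simp only [Finset.sum_add_distrib]
      rw [Equiv.sum_comp σ (fun i => ‖y i‖)]
    rw [e1, Finset.mul_sum, ← Finset.sum_add_distrib]
    apply Finset.sum_le_sum
    intro i _
    have := (abs_le.1 (key (x i) (y (σ i)) (c i) (u (σ i)) (hc i) (hu (σ i)))).2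
    linarith
  have hB : ∑ i, ⟪c i, u i⟫ ≤ ∑ i, ⟪x i, y i⟫ + ε * ∑ i, (‖x i‖ + ‖y i‖ + 1) := by
    rw [Finset.mul_sum, ← Finset.sum_add_distrib]
    apply Finset.sum_le_sum
    intro i _
    have := (abs_le.1 (key (x i) (y i) (c i) (u i) (hc i) (hu i))).1
    linarith
  linarith

end Vale.Agent.Lib.P074
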