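import Vale.Agent.Lib.P074S.PotDefs

open MeasureTheory Filter Topology
open scoped ENNReal NNReal RealInnerProductSpace

namespace Vale.Agent.Lib.P074

variable {d : ℕ}

/-- TASK A8b. Extending a chain by one point (`Fin.sum_univ_castSucc`, `Fin.snoc_last`,
`Fin.snoc_castSucc`; note `(Fin.castSucc i).succ = (i.succ).castSucc` and
`(Fin.last n).succ = Fin.last (n+1)`). -/
theorem chainVal_snoc (T : E d → E d) (n : ℕ) (x : Fin (n + 1) → E d) (p z : E d) :
    chainVal T (n + 1) (Fin.snoc (α := fun _ => E d) x p) z = ⟪T p, z - p⟫ + chainVal T n x p := by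
  unfold chainVal
  rw [Fin.sum_univ_castSucc]
  have h1 : (Fin.snoc (α := fun _ => E d) x p : Fin (n + 2) → E d) (Fin.last (n + 1)) = p :=
    Fin.snoc_last (α := fun _ => E d) p x
  have h2 : ∀ j : Fin (n + 1),
      (Fin.snoc (α := fun _ => E d) x p : Fin (n + 2) → E d) j.castSucc = x j :=
    fun j => Fin.snoc_castSucc (α := fun _ => E d) p x j
  have h3 : ∀ i : Fin n, (Fin.snoc (α := fun _ => E d) x p : Fin (n + 2) → E d) i.castSucc.succ
      = x i.succ := by
    intro i
    rw [← Fin.castSucc_succ]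
    exact h2 _
  have h4 : (Fin.snoc (α := fun _ => E d) x p : Fin (n + 2) → E d) (Fin.last n).succ = p := by
    rw [Fin.succ_last]
    exact h1
  simp only [h1, h2, h3, h4]
  ring

/-- TASK A8c. Dependence on the end point. -/
theorem chainVal_le_add {G : Set (E d)} {T : E d → E d} {R : ℝ} (hR : ∀ x ∈ G, ‖T x‖ ≤ R) (n : ℕ)
    (x : Fin (n + 1) → E d) (hx : ∀ i, x i ∈ G) (z z' : E d) :
    chainVal T n x z ≤ chainVal T n x z' + R * ‖z - z'‖ := by
  unfold chainVal
  have h1 : ⟪T (x (Fin.last n)), z - x (Fin.last n)⟫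
      = ⟪T (x (Fin.last n)), z' - x (Fin.last n)⟫ + ⟪T (x (Fin.last n)), z - z'⟫ := by
    rw [← inner_add_right]
    congr 1
    abel
  have h2 : ⟪T (x (Fin.last n)), z - z'⟫ ≤ R * ‖z - z'‖ :=
    (real_inner_le_norm _ _).trans
      (mul_le_mul_of_nonneg_right (hR _ (hx _)) (norm_nonneg _))
  rw [h1]
  linarith

end Vale.Agent.Lib.P074
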