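import Vale.Agent.Lib.P074S.PotDefs

open MeasureTheory Filter Topology
open scoped ENNReal NNReal RealInnerProductSpace

namespace Vale.Agent.Lib.P074

variable {d : ℕ}

/-- TASK A2. Common good part of small balls. If `s i` has density one at `c i` for each of the
finitely many `i`, then for arbitrarily small `r` the set of `a` in the closed ball of radius `r`
with `c i + a ∈ s i` for all `i` has positive measure.
Proof: by `Filter.eventually_all` and the density, for small `r > 0` and all `i`,
`volume (s i ∩ closedBall (c i) r) > (1 - 1 / (2 N)) * volume (closedBall (c i) r)`, so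
`volume (closedBall (c i) r \ s i) < volume (closedBall 0 r) / (2 N)`
(all closed balls of radius `r` have the same finite positive volume, `Measure.addHaar_closedBall_center`).
The complement of the set inside `closedBall 0 r` is covered by the `N` translates
`(fun a => c i + a) ⁻¹' (closedBall (c i) r \ s i)` (`measure_preimage_add`). -/
theorem exists_common {N : ℕ} (c : Fin N → E d) (s : Fin N → Set (E d))
    (hs : ∀ i, MeasurableSet (s i)) (hd : ∀ i, DensOne (s i) (c i)) {r0 : ℝ} (hr0 : 0 < r0) :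
    ∃ r : ℝ, 0 < r ∧ r ≤ r0 ∧
      0 < volume {a : E d | a ∈ Metric.closedBall (0 : E d) r ∧ ∀ i, c i + a ∈ s i} := by
  classical
  set t : ℝ≥0∞ := (N : ℝ≥0∞) / ((N : ℝ≥0∞) + 1) with ht
  have ht1 : t < 1 := by
    rw [ht]
    apply ENNReal.div_lt_of_lt_mul
    rw [one_mul]
    exact ENNReal.lt_add_right (ENNReal.natCast_ne_top N) one_ne_zero
  have hev : ∀ᶠ r in 𝓝[>] (0:ℝ), ∀ i,
      t < volume (s i ∩ Metric.closedBall (c i) r) / volume (Metric.closedBall (c i) r) := by
    rw [Filter.eventually_all]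
    intro i
    exact (hd i).eventually (lt_mem_nhds ht1)
  have hev2 : ∀ᶠ r in 𝓝[>] (0:ℝ), r ∈ Set.Ioc 0 r0 := Ioc_mem_nhdsGT hr0
  obtain ⟨r, hr, hrI⟩ := (hev.and hev2).exists
  refine ⟨r, hrI.1, hrI.2, ?_⟩
  set V : ℝ≥0∞ := volume (Metric.closedBall (0 : E d) r) with hV
  have hV0 : V ≠ 0 := (Metric.measure_closedBall_pos volume (0 : E d) hrI.1).ne'
  have hVt : V ≠ ∞ := (measure_closedBall_lt_top (μ := volume) (x := (0 : E d)) (r := r)).ne
  have hVc : ∀ i, volume (Metric.closedBall (c i) r) = V := fun i =>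
    Measure.addHaar_closedBall_center volume (c i) r
  set q : ℝ≥0∞ := V / ((N : ℝ≥0∞) + 1) with hq
  have hN1 : ((N : ℝ≥0∞) + 1) ≠ 0 := by simp
  have hN1t : ((N : ℝ≥0∞) + 1) ≠ ∞ := by simp
  have hq0 : q ≠ 0 := by
    rw [hq]; exact (ENNReal.div_pos hV0 hN1t).ne'
  have hqt : q ≠ ∞ := by
    rw [hq]; exact (ENNReal.div_lt_top hVt hN1).ne
  have hVq : (N : ℝ≥0∞) * q + q = V := by
    have : ((N : ℝ≥0∞) + 1) * q = V := by
      rw [hq]; exact ENNReal.mul_div_cancel hN1 hN1t
    rw [← this]; ring
  have htV : t * V = (N : ℝ≥0∞) * q := by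
    rw [ht, hq, div_eq_mul_inv, div_eq_mul_inv]; ring
  have hx : ∀ i, volume (Metric.closedBall (c i) r \ s i) ≤ q := by
    intro i
    have h1 := hr i
    rw [hVc i, ENNReal.lt_div_iff_mul_lt (Or.inl hV0) (Or.inl hVt), htV] at h1
    have h2 : volume (Metric.closedBall (c i) r ∩ s i) + volume (Metric.closedBall (c i) r \ s i)
        = V := by
      rw [measure_inter_add_sdiff _ (hs i), hVc i]
    rw [Set.inter_comm] at h1
    by_contra hcon
    push Not at hcon
    have h3 := ENNReal.add_lt_add h1 hcon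
    rw [h2, hVq] at h3
    exact lt_irrefl _ h3
  set S : Set (E d) := {a : E d | a ∈ Metric.closedBall (0 : E d) r ∧ ∀ i, c i + a ∈ s i} with hS
  have hcov : Metric.closedBall (0 : E d) r ⊆
      S ∪ ⋃ i, (fun a => c i + a) ⁻¹' (Metric.closedBall (c i) r \ s i) := by
    intro a ha
    by_cases h : ∀ i, c i + a ∈ s i
    · exact Or.inl ⟨ha, h⟩
    · push Not at h
      obtain ⟨i, hi⟩ := h
      refine Or.inr (Set.mem_iUnion.2 ⟨i, ?_, hi⟩)
      rw [Metric.mem_closedBall, dist_eq_norm] at ha ⊢
      simpa using ha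
  by_contra hS0
  have hS0' : volume S = 0 := by
    simpa using hS0
  have h4 : V ≤ (N : ℝ≥0∞) * q := by
    calc V ≤ volume (S ∪ ⋃ i, (fun a => c i + a) ⁻¹' (Metric.closedBall (c i) r \ s i)) :=
          measure_mono hcov
      _ ≤ volume S + volume (⋃ i, (fun a => c i + a) ⁻¹' (Metric.closedBall (c i) r \ s i)) :=
          measure_union_le _ _
      _ ≤ 0 + ∑ i, volume ((fun a => c i + a) ⁻¹' (Metric.closedBall (c i) r \ s i)) := by
          rw [hS0']
          gcongr
          exact measure_iUnion_fintype_le _ _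
      _ = ∑ i, volume (Metric.closedBall (c i) r \ s i) := by
          rw [zero_add]
          refine Finset.sum_congr rfl fun i _ => ?_
          exact measure_preimage_add volume (c i) _
      _ ≤ ∑ _i : Fin N, q := Finset.sum_le_sum fun i _ => hx i
      _ = (N : ℝ≥0∞) * q := by simp
  have h5 : (N : ℝ≥0∞) * q < V := by
    rw [← hVq]
    exact ENNReal.lt_add_right (ENNReal.mul_ne_top (ENNReal.natCast_ne_top N) hqt) hq0
  exact absurd h4 (not_le.2 h5)

end Vale.Agent.Lib.P074
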