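import Vale.Agent.Lib.P074S.PotSwap

open MeasureTheory Filter Topology
open scoped ENNReal NNReal RealInnerProductSpace

namespace Vale.Agent.Lib.P074

variable {d : ℕ}

/-- TASK A6c. If the swap improves the summed cost pointwise on `A` by `η`, then the competitor
`T ∘ tau` improves the transport cost by `(volume K)⁻¹ * (ofReal η * volume A)`.
Unfold `mapCost`, `unif` (`lintegral_smul_measure`), apply `lintegral_swap` with
`F p = ENNReal.ofReal (‖p.1 - p.2‖ ^ 2)` once with `σ` and once with `1` (`tau_one`); the first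
summands agree; for the finite sums use `lintegral_finset_sum` to move the sum inside, then
`∫⁻ a in A, (∑ i, ofReal (..σ..)) + ofReal η * volume A = ∫⁻ a in A, ((∑ i, ofReal (..σ..)) + ofReal η)`
(`lintegral_add_right`, `setLIntegral_const`) and `setLIntegral_mono` with the pointwise bound
(`ENNReal.ofReal_sum_of_nonneg`, `ENNReal.ofReal_add`, `ENNReal.ofReal_le_ofReal`). -/
theorem mapCost_swap_add_le {K : Set (E d)} (hK : MeasurableSet K) {N : ℕ} (c : Fin N → E d)
    {A : Set (E d)} (hA : MeasurableSet A)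
    (hdisj : ∀ i j, i ≠ j → ∀ a ∈ A, ∀ b ∈ A, c i + a ≠ c j + b)
    (hAK : ∀ i, ∀ a ∈ A, c i + a ∈ K) (σ : Equiv.Perm (Fin N))
    {T : E d → E d} (hT : Measurable T) {η : ℝ} (hη : 0 ≤ η)
    (himp : ∀ a ∈ A, ∑ i, ‖c i + a - T (c (σ i) + a)‖ ^ 2 + η ≤ ∑ i, ‖c i + a - T (c i + a)‖ ^ 2) :
    mapCost (unif K) (fun x => T (tau c A σ x)) + (volume K)⁻¹ * (ENNReal.ofReal η * volume A)
      ≤ mapCost (unif K) T := by
  set F : E d × E d → ℝ≥0∞ := fun p => ENNReal.ofReal (‖p.1 - p.2‖ ^ 2) with hFdef
  have hF : Measurable F :=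
    ENNReal.measurable_ofReal.comp ((measurable_fst.sub measurable_snd).norm.pow_const 2)
  have e1 : mapCost (unif K) (fun x => T (tau c A σ x))
      = (volume K)⁻¹ * ∫⁻ x in K, F (x, T (tau c A σ x)) := by
    simp only [mapCost, unif, lintegral_smul_measure, smul_eq_mul, hFdef]
  have e2 : mapCost (unif K) T = (volume K)⁻¹ * ∫⁻ x in K, F (x, T (tau c A 1 x)) := by
    simp only [mapCost, unif, lintegral_smul_measure, smul_eq_mul, hFdef, tau_one]
  rw [e1, e2, lintegral_swap hK c hA hdisj hAK σ hT hF, lintegral_swap hK c hA hdisj hAK 1 hT hF,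
    ← mul_add, add_assoc]
  refine mul_le_mul_right ?_ _
  refine add_le_add_right ?_ _
  have hm : ∀ (τ : Equiv.Perm (Fin N)) (i : Fin N),
      Measurable (fun a : E d => F (c i + a, T (c (τ i) + a))) := fun τ i =>
    hF.comp ((measurable_const_add (c i)).prodMk (hT.comp (measurable_const_add (c (τ i)))))
  rw [← lintegral_finset_sum _ (fun i _ => hm σ i), ← lintegral_finset_sum _ (fun i _ => hm 1 i),
    ← setLIntegral_const, ← lintegral_add_right _ measurable_const]
  refine setLIntegral_mono (Finset.measurable_sum _ (fun i _ => hm 1 i)) ?_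
  intro a ha
  simp only [hFdef, Equiv.Perm.coe_one, id_eq]
  rw [← ENNReal.ofReal_sum_of_nonneg (fun i _ => by positivity),
    ← ENNReal.ofReal_sum_of_nonneg (fun i _ => by positivity),
    ← ENNReal.ofReal_add (Finset.sum_nonneg (fun i _ => by positivity)) hη]
  exact ENNReal.ofReal_le_ofReal (himp a ha)

end Vale.Agent.Lib.P074
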