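import Vale.Agent.Lib.P074S.PotDefs

open MeasureTheory Filter Topology
open scoped ENNReal NNReal RealInnerProductSpace

namespace Vale.Agent.Lib.P074

variable {d : ℕ}

/-- TASK A8a. Closed chains have nonpositive value. By `Fin.sum_univ_castSucc`,
`chainVal T n x (x 0) = ∑ i : Fin (n+1), ⟪T (x i), x (i + 1) - x i⟫`
(`Fin.coeSucc_eq_succ : i.castSucc + 1 = i.succ`, `Fin.last_add_one`). Apply `PermMono` with
`σ = (Equiv.addRight (1 : Fin (n+1))).symm` (so `σ j = j - 1`) and reindex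
`∑ j, ⟪x j, T (x (j - 1))⟫ = ∑ i, ⟪x (i + 1), T (x i)⟫` by `Equiv.sum_comp (Equiv.addRight 1)`;
`real_inner_comm`, `inner_sub_right`. -/
theorem chainVal_cycle_le {G : Set (E d)} {T : E d → E d} (h : PermMono G T) (n : ℕ)
    (x : Fin (n + 1) → E d) (hx : ∀ i, x i ∈ G) : chainVal T n x (x 0) ≤ 0 := by
  have e1 : chainVal T n x (x 0) = ∑ i : Fin (n + 1), ⟪T (x i), x (i + 1) - x i⟫ := by
    unfold chainVal
    rw [Fin.sum_univ_castSucc, Fin.last_add_one, add_comm]
    congr 1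
    apply Finset.sum_congr rfl
    intro i _
    rw [Fin.coeSucc_eq_succ]
  have e2 := h (n + 1) x hx (Equiv.addRight (1 : Fin (n + 1))).symm
  have e3 : ∑ j : Fin (n + 1), ⟪x j, T (x ((Equiv.addRight (1 : Fin (n + 1))).symm j))⟫
      = ∑ i : Fin (n + 1), ⟪x (i + 1), T (x i)⟫ := by
    rw [← Equiv.sum_comp (Equiv.addRight (1 : Fin (n + 1)))]
    apply Finset.sum_congr rfl
    intro i _
    rw [Equiv.symm_apply_apply]
    rfl
  rw [e3] at e2
  rw [e1]
  have e4 : ∑ i : Fin (n + 1), ⟪T (x i), x (i + 1) - x i⟫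
      = ∑ i : Fin (n + 1), ⟪x (i + 1), T (x i)⟫ - ∑ i : Fin (n + 1), ⟪x i, T (x i)⟫ := by
    rw [← Finset.sum_sub_distrib]
    apply Finset.sum_congr rfl
    intro i _
    rw [inner_sub_right, real_inner_comm (x (i + 1)), real_inner_comm (x i)]
  rw [e4]
  linarith

end Vale.Agent.Lib.P074
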