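import Vale.Agent.Lib.P074S.Defs

open MeasureTheory Filter Topology
open scoped ENNReal NNReal RealInnerProductSpace

namespace Vale.Agent.Lib.P074

variable {d : ℕ}

/-- `s` has Lebesgue density one at `x`. -/
def DensOne (s : Set (E d)) (x : E d) : Prop :=
  Tendsto (fun r : ℝ => volume (s ∩ Metric.closedBall x r) / volume (Metric.closedBall x r))
    (𝓝[>] 0) (𝓝 1)

/-- `x` is a point of `K` at which `T` is approximately continuous relative to `K`. -/
def GoodPt (K : Set (E d)) (T : E d → E d) (x : E d) : Prop :=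
  x ∈ K ∧ ∀ ε > 0, ∃ s : Set (E d), MeasurableSet s ∧ x ∈ s ∧ s ⊆ K ∧
    (∀ x' ∈ s, ‖T x' - T x‖ < ε) ∧ DensOne s x

/-- The piecewise translation: on `c i + A` translate by `c (σ i) - c i`, identity elsewhere. -/
noncomputable def tau {N : ℕ} (c : Fin N → E d) (A : Set (E d)) (σ : Equiv.Perm (Fin N))
    (x : E d) : E d :=
  x + ∑ i, Set.indicator {z : E d | z - c i ∈ A} (fun _ => c (σ i) - c i) x

/-- Permutation form of cyclical monotonicity of `T` on the set `G`. -/
def PermMono (G : Set (E d)) (T : E d → E d) : Prop :=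
  ∀ (N : ℕ) (x : Fin N → E d), (∀ i, x i ∈ G) → ∀ σ : Equiv.Perm (Fin N),
    ∑ i, ⟪x i, T (x (σ i))⟫ ≤ ∑ i, ⟪x i, T (x i)⟫

/-- Value at `z` of the chain `x 0, ..., x n`. -/
noncomputable def chainVal (T : E d → E d) (n : ℕ) (x : Fin (n + 1) → E d) (z : E d) : ℝ :=
  ⟪T (x (Fin.last n)), z - x (Fin.last n)⟫
    + ∑ i : Fin n, ⟪T (x i.castSucc), x i.succ - x i.castSucc⟫

end Vale.Agent.Lib.P074
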