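import Vale.Agent.Lib.P074S.PotDefs

open MeasureTheory Filter Topology
open scoped ENNReal NNReal RealInnerProductSpace

namespace Vale.Agent.Lib.P074

variable {d : ℕ}

/-- TASK A1. Almost every point of `K` is a good point.
Use `Besicovitch.ae_tendsto_measure_inter_div_of_measurableSet volume hs` for the countably many
sets `s k n = K ∩ T ⁻¹' (Metric.ball (TopologicalSpace.denseSeq (E d) k) (1 / (n + 1)))`
(`ae_all_iff`): for a.e. `x`, for all `k n`, the ratio tends to `(s k n).indicator 1 x`.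
Given such an `x ∈ K` and `ε > 0` choose `n` with `2 / (n + 1) < ε` and `k` with
`dist (denseSeq k) (T x) < 1 / (n + 1)`; then `s k n` works. -/
theorem ae_goodPt {K : Set (E d)} (hK : MeasurableSet K) {T : E d → E d} (hT : Measurable T) :
    ∀ᵐ x ∂(volume.restrict K), GoodPt K T x := by
  let s : ℕ → ℕ → Set (E d) := fun k n =>
    K ∩ T ⁻¹' (Metric.ball (TopologicalSpace.denseSeq (E d) k) (1 / ((n : ℝ) + 1)))
  have hs : ∀ k n, MeasurableSet (s k n) := fun k n => hK.inter (hT measurableSet_ball)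
  have h1 : ∀ᵐ x ∂(volume : Measure (E d)), ∀ k n,
      Tendsto (fun r : ℝ => volume (s k n ∩ Metric.closedBall x r) /
        volume (Metric.closedBall x r)) (𝓝[>] 0) (𝓝 ((s k n).indicator 1 x)) := by
    rw [ae_all_iff]
    intro k
    rw [ae_all_iff]
    intro n
    exact Besicovitch.ae_tendsto_measure_inter_div_of_measurableSet volume (hs k n)
  have h2 : ∀ᵐ x ∂(volume.restrict K), x ∈ K := ae_restrict_mem hK
  filter_upwards [ae_restrict_of_ae h1, h2] with x hx hxK
  refine ⟨hxK, fun ε hε => ?_⟩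
  obtain ⟨n, hn⟩ := exists_nat_gt (2 / ε)
  have hn0 : (0 : ℝ) < (n : ℝ) + 1 := by positivity
  have hn1 : (0 : ℝ) < 1 / ((n : ℝ) + 1) := by positivity
  have hn2 : 2 * (1 / ((n : ℝ) + 1)) < ε := by
    have h3 : 2 / ε < (n : ℝ) + 1 := by linarith
    have h4 : 2 < ((n : ℝ) + 1) * ε := by
      rwa [div_lt_iff₀ hε] at h3
    rw [mul_one_div, div_lt_iff₀ hn0]
    linarith
  obtain ⟨k, hk⟩ := (TopologicalSpace.denseRange_denseSeq (E d)).exists_dist_lt (T x) hn1
  have hxs : x ∈ s k n := ⟨hxK, by simpa [Metric.mem_ball] using hk⟩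
  refine ⟨s k n, hs k n, hxs, Set.inter_subset_left, ?_, ?_⟩
  · intro x' hx'
    have h5 : dist (T x') (TopologicalSpace.denseSeq (E d) k) < 1 / ((n : ℝ) + 1) := hx'.2
    have h6 : dist (T x') (T x) ≤ dist (T x') (TopologicalSpace.denseSeq (E d) k)
        + dist (T x) (TopologicalSpace.denseSeq (E d) k) := dist_triangle_right _ _ _
    rw [← dist_eq_norm]
    linarith
  · have h7 := hx k n
    rw [Set.indicator_of_mem hxs] at h7
    simpa [DensOne] using h7

end Vale.Agent.Lib.P074
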