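import Vale.Agent.Lib.P074S.PotDefs

open MeasureTheory Filter Topology
open scoped ENNReal NNReal RealInnerProductSpace

namespace Vale.Agent.Lib.P074

variable {d : ℕ}

/-- TASK A9c. Absolute continuity in the direction we need: a property holding a.e. on `K` for
Lebesgue measure holds a.e. for `unif K`. -/
theorem ae_unif_of_ae_restrict {K : Set (E d)} {p : E d → Prop}
    (h : ∀ᵐ x ∂(volume.restrict K), p x) : ∀ᵐ x ∂(unif K), p x := by
  have hac : unif K ≪ volume.restrict K := by
    unfold unif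
    exact Measure.smul_absolutelyContinuous
  exact hac.ae_le h

/-- TASK A9a. Almost every point (for `unif K`) lies in `K`. -/
theorem ae_mem_unif_of_meas {K : Set (E d)} (hK : MeasurableSet K) : ∀ᵐ x ∂(unif K), x ∈ K :=
  ae_unif_of_ae_restrict (ae_restrict_mem hK)

/-- TASK A9b. `T x ∈ Y` almost everywhere. -/
theorem ae_map_mem {K Y : Set (E d)} (hY : MeasurableSet Y) {μ : Measure (E d)} (hμ : μ Yᶜ = 0)
    {T : E d → E d} (hT : Measurable T) (hmap : (unif K).map T = μ) :
    ∀ᵐ x ∂(unif K), T x ∈ Y := by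
  have h1 : ∀ᵐ y ∂((unif K).map T), y ∈ Y := by
    rw [hmap]
    rw [ae_iff]
    exact hμ
  exact ae_of_ae_map hT.aemeasurable h1

/-- TASK A9d. The cost of a map with bounded values is finite. (`unif K` has total mass at most
one: `(volume K)⁻¹ * volume K ≤ 1`, `ENNReal.inv_mul_le_one`; a.e. `‖x - T x‖^2 ≤ (RK + R)^2`;
`lintegral_mono_ae`, `lintegral_const`.) -/
theorem mapCost_ne_top {K : Set (E d)} (hK : MeasurableSet K) {RK R : ℝ}
    (hRK : ∀ x ∈ K, ‖x‖ ≤ RK) {T : E d → E d} (hTR : ∀ᵐ x ∂(unif K), ‖T x‖ ≤ R) :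
    mapCost (unif K) T ≠ ∞ := by
  have hmass : (unif K) Set.univ ≤ 1 := by
    unfold unif
    rw [Measure.smul_apply, Measure.restrict_apply MeasurableSet.univ, Set.univ_inter, smul_eq_mul]
    exact ENNReal.inv_mul_le_one _
  have hle : mapCost (unif K) T ≤ ∫⁻ _x, ENNReal.ofReal ((RK + R) ^ 2) ∂(unif K) := by
    unfold mapCost
    refine lintegral_mono_ae ?_
    filter_upwards [ae_mem_unif_of_meas hK, hTR] with x hx hT
    refine ENNReal.ofReal_le_ofReal ?_
    have h1 : ‖x - T x‖ ≤ RK + R := (norm_sub_le _ _).trans (add_le_add (hRK x hx) hT)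
    exact pow_le_pow_left₀ (norm_nonneg _) h1 2
  rw [lintegral_const] at hle
  have h2 : ENNReal.ofReal ((RK + R) ^ 2) * (unif K) Set.univ ≤ ENNReal.ofReal ((RK + R) ^ 2) * 1 := by
    gcongr
  exact ne_top_of_le_ne_top (by simp) (hle.trans h2)

end Vale.Agent.Lib.P074
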