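import Vale.Agent.Lib.P074S.PotDefs

open MeasureTheory Filter Topology
open scoped ENNReal NNReal RealInnerProductSpace

namespace Vale.Agent.Lib.P074

variable {d : ℕ}

/-- TASK A7a. Injective selection from finitely many infinite sets (induction on `N`, or Hall:
`Finset.all_card_le_biUnion_card_iff_exists_injective` with finsets of card `N` from
`Set.Infinite.exists_subset_card_eq`). -/
theorem exists_injective_selection {α : Type*} {N : ℕ} (Q : Fin N → Set α)
    (h : ∀ i, (Q i).Infinite) : ∃ c : Fin N → α, Function.Injective c ∧ ∀ i, c i ∈ Q i := by
  induction N with
  | zero => exact ⟨fun i => i.elim0, fun i => i.elim0, fun i => i.elim0⟩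
  | succ n ih =>
    obtain ⟨c, hc, hcQ⟩ := ih (fun i => Q i.castSucc) (fun i => h _)
    obtain ⟨p, hpQ, hp⟩ := (h (Fin.last n)).exists_notMem_finite (Set.finite_range c)
    refine ⟨Fin.snoc (α := fun _ => α) c p, ?_, ?_⟩
    · intro i j hij
      induction i using Fin.lastCases with
      | last =>
        induction j using Fin.lastCases with
        | last => rfl
        | cast j =>
          simp only [Fin.snoc_last, Fin.snoc_castSucc] at hij
          exact absurd ⟨j, hij.symm⟩ hp
      | cast i =>
        induction j using Fin.lastCases with
        | last =>
          simp only [Fin.snoc_last, Fin.snoc_castSucc] at hij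
          exact absurd ⟨i, hij⟩ hp
        | cast j =>
          simp only [Fin.snoc_castSucc] at hij
          rw [hc hij]
    · intro i
      induction i using Fin.lastCases with
      | last => simpa using hpQ
      | cast i => simpa using hcQ i

end Vale.Agent.Lib.P074
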