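import Vale.Agent.Lib.P074S.PotInf
import Vale.Agent.Lib.P074S.PotSel
import Vale.Agent.Lib.P074S.PotAlg2

open MeasureTheory Filter Topology
open scoped ENNReal NNReal RealInnerProductSpace

namespace Vale.Agent.Lib.P074

variable {d : ℕ}

/-- TASK A7b. Removing injectivity by approximation. Given good points `x i` and `σ`; for
`0 < ε ≤ 1` take `s i` from `GoodPt` at `x i`, the infinite sets
`{z | GoodPt K T z} ∩ s i ∩ ball (x i) ε` (`DensOne.infinite_inter`), an injective selection `c`,
apply `hinj` to `c` and then `sum_inner_perturb2` (with `y i = T (x i)`, `u i = T (c i)`).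
Let `ε → 0` (`le_of_forall_pos_le_add` after rescaling `ε`). -/
theorem permMono_of_injective [NeZero d] {K : Set (E d)} {T : E d → E d}
    (hG : volume (K \ {z | GoodPt K T z}) = 0)
    (hinj : ∀ (N : ℕ) (c : Fin N → E d), Function.Injective c → (∀ i, GoodPt K T (c i)) →
      ∀ σ : Equiv.Perm (Fin N), ∑ i, ⟪c i, T (c (σ i))⟫ ≤ ∑ i, ⟪c i, T (c i)⟫) :
    PermMono {z | GoodPt K T z} T := by
  intro N x hx σ
  obtain ⟨M, hM⟩ : ∃ M : ℝ, M = 2 * ∑ i, (‖x i‖ + ‖T (x i)‖ + 1) := ⟨_, rfl⟩
  have hM0 : 0 ≤ M := by rw [hM]; positivity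
  have key : ∀ ε : ℝ, 0 < ε → ε ≤ 1 →
      ∑ i, ⟪x i, T (x (σ i))⟫ ≤ ∑ i, ⟪x i, T (x i)⟫ + ε * M := by
    intro ε hε hε1
    choose s hsm hxs hsK hsT hsd using fun i => (hx i).2 ε hε
    have hinf : ∀ i, ({z | GoodPt K T z} ∩ s i ∩ Metric.ball (x i) ε).Infinite :=
      fun i => (hsd i).infinite_inter (hsK i) hG hε
    obtain ⟨c, hcinj, hc⟩ := exists_injective_selection _ hinf
    have h1 := hinj N c hcinj (fun i => (hc i).1.1) σ
    have h2 := sum_inner_perturb2 x c (fun i => T (x i)) (fun i => T (c i)) σ hε.le hε1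
      (fun i => by
        have := (hc i).2
        rw [Metric.mem_ball, dist_eq_norm] at this
        exact this.le)
      (fun i => (hsT i _ (hc i).1.2).le) h1
    rw [hM]; exact h2
  apply le_of_forall_pos_le_add
  intro δ hδ
  have h2 := key (min 1 (δ / (M + 1))) (by positivity) (min_le_left _ _)
  have h3 : min 1 (δ / (M + 1)) * M ≤ δ := by
    calc min 1 (δ / (M + 1)) * M ≤ δ / (M + 1) * M := by
          gcongr
          exact min_le_right _ _
      _ ≤ δ := by
          rw [div_mul_eq_mul_div, div_le_iff₀ (by positivity)]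
          nlinarith
  linarith

end Vale.Agent.Lib.P074
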