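import Vale.Agent.Lib.P074S.PotDefs

open MeasureTheory Filter Topology
open scoped ENNReal NNReal RealInnerProductSpace

namespace Vale.Agent.Lib.P074

variable {d : ℕ}

/-- TASK A2b. A set of density one at `x` meets every ball around `x` and every conull subset of
`K` in an infinite set. (`volume (s ∩ closedBall x r) > 0` for small `r`; removing the null set
`K \ G` keeps the outer measure positive; finite sets are null: `Set.Finite.measure_zero`.) -/
theorem DensOne.infinite_inter [NeZero d] {K G s : Set (E d)} {x : E d} (hs : DensOne s x) (hsK : s ⊆ K)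
    (hG : volume (K \ G) = 0) {ε : ℝ} (hε : 0 < ε) :
    (G ∩ s ∩ Metric.ball x ε).Infinite := by
  intro hfin
  haveI : Nonempty (Fin d) := ⟨⟨0, NeZero.pos d⟩⟩
  haveI : Nontrivial (E d) := inferInstance
  have h0 : volume (G ∩ s ∩ Metric.ball x ε) = 0 := hfin.measure_zero _
  have hev : ∀ᶠ r : ℝ in 𝓝[>] 0,
      (1 / 2 : ℝ≥0∞) < volume (s ∩ Metric.closedBall x r) / volume (Metric.closedBall x r) :=
    hs.eventually (lt_mem_nhds (by
      rw [ENNReal.div_lt_iff (by simp) (by simp)]
      norm_num))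
  have hev2 : ∀ᶠ r : ℝ in 𝓝[>] 0, r < ε :=
    (tendsto_nhdsWithin_of_tendsto_nhds tendsto_id).eventually (gt_mem_nhds hε)
  obtain ⟨r, hr1, hr2⟩ := (hev.and hev2).exists
  have hsub : s ∩ Metric.closedBall x r ⊆ (G ∩ s ∩ Metric.ball x ε) ∪ (K \ G) := by
    intro z hz
    by_cases hzG : z ∈ G
    · left
      exact ⟨⟨hzG, hz.1⟩, lt_of_le_of_lt hz.2 hr2⟩
    · right
      exact ⟨hsK hz.1, hzG⟩
  have hz : volume (s ∩ Metric.closedBall x r) = 0 := by
    refine measure_mono_null hsub ?_
    exact measure_union_null h0 hG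
  rw [hz] at hr1
  simp at hr1

end Vale.Agent.Lib.P074
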