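import Vale.Agent.Lib.P074S.PotSwap

open MeasureTheory Filter Topology
open scoped ENNReal NNReal RealInnerProductSpace

namespace Vale.Agent.Lib.P074

variable {d : ℕ}

/-- TASK A5. The competitor `T ∘ tau` has the same push-forward as `T`.
`Measure.ext`; for measurable `B` use `Measure.map_apply`, unfold `unif`, write the measure of the
preimage as `∫⁻ x in K, F (x, T (tau x))` with `F p = B.indicator 1 p.2` (`lintegral_indicator_one`),
apply `lintegral_swap` once with `σ` and once with `1` (`tau_one`), and reindex the finite sum with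
`Equiv.sum_comp σ (fun i => ∫⁻ a in A, B.indicator 1 (T (c i + a)))`. -/
theorem map_comp_tau {K : Set (E d)} (hK : MeasurableSet K) {N : ℕ} (c : Fin N → E d)
    {A : Set (E d)} (hA : MeasurableSet A)
    (hdisj : ∀ i j, i ≠ j → ∀ a ∈ A, ∀ b ∈ A, c i + a ≠ c j + b)
    (hAK : ∀ i, ∀ a ∈ A, c i + a ∈ K) (σ : Equiv.Perm (Fin N))
    {T : E d → E d} (hT : Measurable T) :
    (unif K).map (fun x => T (tau c A σ x)) = (unif K).map T := by
  have hTt : Measurable (fun x => T (tau c A σ x)) := hT.comp (measurable_tau c hA σ)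
  refine Measure.ext ?_
  intro B hB
  rw [Measure.map_apply hTt hB, Measure.map_apply hT hB]
  unfold unif
  rw [Measure.smul_apply, Measure.smul_apply]
  congr 1
  set F : E d × E d → ℝ≥0∞ := fun p => B.indicator 1 p.2 with hFdef
  have hF : Measurable F := (measurable_one.indicator hB).comp measurable_snd
  have key : ∀ S : E d → E d, Measurable S →
      (volume.restrict K) (S ⁻¹' B) = ∫⁻ x in K, F (x, S x) := by
    intro S hS
    rw [← lintegral_indicator_one (hS hB)]
    rfl
  rw [key _ hTt, key _ hT]
  have h1 := lintegral_swap hK c hA hdisj hAK σ hT hF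
  have h2 := lintegral_swap hK c hA hdisj hAK 1 hT hF
  simp only [tau_one] at h2
  rw [h1, h2]
  congr 1
  exact Equiv.sum_comp σ (fun i => ∫⁻ a in A, B.indicator 1 (T (c i + a)))

end Vale.Agent.Lib.P074
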