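import Vale.Agent.Lib.P074S.PotCommon
import Vale.Agent.Lib.P074S.PotMap
import Vale.Agent.Lib.P074S.PotAlg
import Vale.Agent.Lib.P074S.PotCost

open MeasureTheory Filter Topology
open scoped ENNReal NNReal RealInnerProductSpace

namespace Vale.Agent.Lib.P074

variable {d : ℕ}

/-- TASK A6d. Permutation monotonicity at pairwise distinct good points.
By contradiction let `4 η = ∑ ⟪c i, T (c (σ i))⟫ - ∑ ⟪c i, T (c i)⟫ > 0`. Choose `ε > 0` with
`ε * ∑ ‖c i‖ ≤ η`, sets `s i` from `GoodPt` at `c i` for this `ε`, `r0 > 0` with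
`2 * r0 < dist (c i) (c j)` for `i ≠ j` (finite minimum; if `N ≤ 1` anything works),
`r` and `A = {a | a ∈ closedBall 0 r ∧ ∀ i, c i + a ∈ s i}` from `exists_common`
(`A` is measurable: finite intersection of preimages). Then `hdisj`, `hAK` hold, and by
`sum_sq_perm`, `sum_inner_perturb` (with `u i = T (c i + a)`, `y i = T (c i)`) the hypothesis of
`mapCost_swap_add_le` holds with `4 η` in place of `η`. The competitor is measurable
(`hT.1.comp (measurable_tau ..)`) and has push-forward `μ` (`map_comp_tau`), so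
`mapCost T ≤ mapCost (T ∘ tau)`; with `mapCost T ≠ ∞`, `volume K ≠ ∞`, `0 < volume A` this is a
contradiction. -/
theorem permMono_injective {K : Set (E d)} (hK : MeasurableSet K) (hKtop : volume K ≠ ∞)
    {μ : Measure (E d)} {T : E d → E d} (hT : IsOptMap (unif K) μ T)
    (hfin : mapCost (unif K) T ≠ ∞) {N : ℕ} (c : Fin N → E d) (hc : Function.Injective c)
    (hg : ∀ i, GoodPt K T (c i)) (σ : Equiv.Perm (Fin N)) :
    ∑ i, ⟪c i, T (c (σ i))⟫ ≤ ∑ i, ⟪c i, T (c i)⟫ := by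
  by_contra hcon
  rw [not_le] at hcon
  obtain ⟨η, hη⟩ : ∃ η : ℝ, η = (∑ i, ⟪c i, T (c (σ i))⟫ - ∑ i, ⟪c i, T (c i)⟫) / 4 := ⟨_, rfl⟩
  have hηpos : 0 < η := by rw [hη]; linarith
  obtain ⟨S, hS⟩ : ∃ S : ℝ, S = ∑ i, ‖c i‖ := ⟨_, rfl⟩
  have hS0 : 0 ≤ S := by rw [hS]; exact Finset.sum_nonneg (fun i _ => norm_nonneg _)
  obtain ⟨ε, hε⟩ : ∃ ε : ℝ, ε = η / (S + 1) := ⟨_, rfl⟩
  have hεpos : 0 < ε := by rw [hε]; positivity
  have hεS : ε * S ≤ η := by
    rw [hε, div_mul_eq_mul_div, div_le_iff₀ (by positivity)]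
    nlinarith
  choose s hsm hcs hsK hsT hsd using fun i => (hg i).2 ε hεpos
  obtain ⟨r0, hr0, hsep⟩ : ∃ r0 : ℝ, 0 < r0 ∧ ∀ i j, i ≠ j → 2 * r0 < dist (c i) (c j) := by
    by_cases hne : ((Finset.univ : Finset (Fin N × Fin N)).filter (fun p => p.1 ≠ p.2)).Nonempty
    · obtain ⟨p, hp, hmin⟩ := Finset.exists_min_image _ (fun p : Fin N × Fin N => dist (c p.1) (c p.2)) hne
      have hp' : p.1 ≠ p.2 := (Finset.mem_filter.1 hp).2
      have hpos : 0 < dist (c p.1) (c p.2) := dist_pos.2 (fun h => hp' (hc h))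
      refine ⟨dist (c p.1) (c p.2) / 4, by positivity, fun i j hij => ?_⟩
      have := hmin (i, j) (Finset.mem_filter.2 ⟨Finset.mem_univ _, hij⟩)
      simp only at this
      linarith
    · refine ⟨1, one_pos, fun i j hij => ?_⟩
      exact absurd ⟨(i, j), Finset.mem_filter.2 ⟨Finset.mem_univ _, hij⟩⟩ hne
  obtain ⟨r, hr, hrr0, hApos⟩ := exists_common c s hsm hsd hr0
  obtain ⟨A, hA⟩ : ∃ A : Set (E d),
      A = {a : E d | a ∈ Metric.closedBall (0 : E d) r ∧ ∀ i, c i + a ∈ s i} := ⟨_, rfl⟩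
  rw [← hA] at hApos
  have hmem : ∀ a, a ∈ A ↔ (a ∈ Metric.closedBall (0 : E d) r ∧ ∀ i, c i + a ∈ s i) := by
    intro a; rw [hA]; rfl
  have hAm : MeasurableSet A := by
    have : A = Metric.closedBall (0 : E d) r ∩ ⋂ i, (fun a => c i + a) ⁻¹' (s i) := by
      ext a
      rw [hmem]
      simp only [Set.mem_inter_iff, Set.mem_iInter, Set.mem_preimage]
    rw [this]
    exact Metric.isClosed_closedBall.measurableSet.inter
      (MeasurableSet.iInter (fun i => (measurable_const_add (c i)) (hsm i)))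
  have hdisj : ∀ i j, i ≠ j → ∀ a ∈ A, ∀ b ∈ A, c i + a ≠ c j + b := by
    intro i j hij a ha b hb heq
    have h1 : ‖a‖ ≤ r := by simpa using ((hmem a).1 ha).1
    have h2 : ‖b‖ ≤ r := by simpa using ((hmem b).1 hb).1
    have h3 : c i - c j = b - a := by
      rw [sub_eq_sub_iff_add_eq_add, heq, add_comm]
    have h4 : dist (c i) (c j) ≤ 2 * r := by
      rw [dist_eq_norm, h3]
      calc ‖b - a‖ ≤ ‖b‖ + ‖a‖ := norm_sub_le _ _
        _ ≤ 2 * r := by linarith
    have := hsep i j hij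
    linarith
  have hAK : ∀ i, ∀ a ∈ A, c i + a ∈ K := fun i a ha => hsK i (((hmem a).1 ha).2 i)
  have himp : ∀ a ∈ A, ∑ i, ‖c i + a - T (c (σ i) + a)‖ ^ 2 + 4 * η
      ≤ ∑ i, ‖c i + a - T (c i + a)‖ ^ 2 := by
    intro a ha
    have h1 := sum_sq_perm c (fun i => T (c i + a)) a σ
    have h2 := sum_inner_perturb c (fun i => T (c i + a)) (fun i => T (c i)) σ (ε := ε)
      (fun i => (hsT i _ (((hmem a).1 ha).2 i)).le)
    rw [h1]
    rw [← hS] at h2
    nlinarith
  have hcost := mapCost_swap_add_le hK c hAm hdisj hAK σ hT.1 (by positivity : (0:ℝ) ≤ 4 * η) himp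
  have hopt := hT.2.2 (fun x => T (tau c A σ x)) (hT.1.comp (measurable_tau c hAm σ))
    ((map_comp_tau hK c hAm hdisj hAK σ hT.1).trans hT.2.1)
  have hpos : (volume K)⁻¹ * (ENNReal.ofReal (4 * η) * volume A) ≠ 0 := by
    apply mul_ne_zero (ENNReal.inv_ne_zero.2 hKtop)
    apply mul_ne_zero _ hApos.ne'
    rw [Ne, ENNReal.ofReal_eq_zero, not_le]
    positivity
  have hle : mapCost (unif K) T + (volume K)⁻¹ * (ENNReal.ofReal (4 * η) * volume A)
      ≤ mapCost (unif K) T + 0 := by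
    rw [add_zero]
    exact (add_le_add_left hopt _).trans hcost
  have := (ENNReal.add_le_add_iff_left hfin).1 hle
  exact hpos (le_antisymm this zero_le)

end Vale.Agent.Lib.P074
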