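import Vale.Agent.Lib.P074S.PotChain
import Vale.Agent.Lib.P074S.PotCyc

open MeasureTheory Filter Topology
open scoped ENNReal NNReal RealInnerProductSpace

namespace Vale.Agent.Lib.P074

variable {d : ℕ}

/-- TASK A8d. Rockafellar potential. Fix `x0 ∈ G` and let `φ z` be the supremum of
`chainVal T n x z` over all `n` and all `x : Fin (n+1) → E d` with values in `G` and `x 0 = x0`
(index type e.g. `Σ n, {x : Fin (n+1) → E d // (∀ i, x i ∈ G) ∧ x 0 = x0}`, nonempty).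
Bounded above at every `z` by `R * ‖z - x0‖` (`chainVal_le_add` with `z' = x0 = x 0` and
`chainVal_cycle_le`). For `p ∈ G` and a chain `x`, the chain `Fin.snoc x p` is admissible
(`Fin.snoc` at `0` is `x 0`: write `0 = Fin.castSucc 0`), so by `chainVal_snoc`
`⟪T p, z - p⟫ + chainVal T n x p ≤ φ z`; take the supremum over chains (`ciSup_le`, `le_ciSup`). -/
theorem exists_potential_of_permMono {G : Set (E d)} {T : E d → E d} (hne : G.Nonempty) {R : ℝ}
    (hR : ∀ x ∈ G, ‖T x‖ ≤ R) (h : PermMono G T) :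
    ∃ φ : E d → ℝ, ∀ x ∈ G, ∀ x', φ x + ⟪T x, x' - x⟫ ≤ φ x' := by
  obtain ⟨x0, hx0⟩ := hne
  let ι : Type := Σ n : ℕ, {x : Fin (n + 1) → E d // (∀ i, x i ∈ G) ∧ x 0 = x0}
  let F : E d → ι → ℝ := fun z c => chainVal T c.1 c.2.1 z
  have hι : Nonempty ι := ⟨⟨0, ⟨fun _ => x0, fun _ => hx0, rfl⟩⟩⟩
  have hbdd : ∀ z, BddAbove (Set.range (F z)) := by
    intro z
    refine ⟨R * ‖z - x0‖, ?_⟩
    rintro _ ⟨c, rfl⟩
    have h1 := chainVal_le_add hR c.1 c.2.1 c.2.2.1 z x0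
    have h2 := chainVal_cycle_le h c.1 c.2.1 c.2.2.1
    rw [c.2.2.2] at h2
    show chainVal T c.1 c.2.1 z ≤ _
    linarith
  refine ⟨fun z => ⨆ c, F z c, ?_⟩
  intro p hp z
  have key : ∀ c : ι, F p c ≤ (⨆ c, F z c) - ⟪T p, z - p⟫ := by
    intro c
    have hadm : (∀ i, (Fin.snoc (α := fun _ => E d) c.2.1 p : Fin (c.1 + 2) → E d) i ∈ G) ∧
        (Fin.snoc (α := fun _ => E d) c.2.1 p : Fin (c.1 + 2) → E d) 0 = x0 := by
      constructor
      · intro i
        refine Fin.lastCases ?_ (fun j => ?_) i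
        · rw [Fin.snoc_last (α := fun _ => E d)]
          exact hp
        · rw [Fin.snoc_castSucc (α := fun _ => E d)]
          exact c.2.2.1 j
      · have : (0 : Fin (c.1 + 2)) = Fin.castSucc (0 : Fin (c.1 + 1)) := rfl
        rw [this, Fin.snoc_castSucc (α := fun _ => E d)]
        exact c.2.2.2
    have h1 := le_ciSup (hbdd z) (⟨c.1 + 1, ⟨_, hadm⟩⟩ : ι)
    have h2 := chainVal_snoc T c.1 c.2.1 p z
    have h3 : F z (⟨c.1 + 1, ⟨_, hadm⟩⟩ : ι)
        = chainVal T (c.1 + 1) (Fin.snoc (α := fun _ => E d) c.2.1 p) z := rfl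
    rw [h3, h2] at h1
    show chainVal T c.1 c.2.1 p ≤ _
    linarith
  have := ciSup_le key
  show (⨆ c, F p c) + _ ≤ ⨆ c, F z c
  linarith

end Vale.Agent.Lib.P074
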