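import Vale.Agent.Lib.P074S.PotDens
import Vale.Agent.Lib.P074S.PotInj
import Vale.Agent.Lib.P074S.PotGen
import Vale.Agent.Lib.P074S.PotRock
import Vale.Agent.Lib.P074S.PotFin

open MeasureTheory Filter Topology
open scoped ENNReal NNReal RealInnerProductSpace

namespace Vale.Agent.Lib.P074

variable {d : ℕ}

/-- TASK A10. Every optimal map (optimal among Borel maps) is a Brenier map.
`K` is measurable with `volume K ≠ ∞` (`hK.measure_lt_top`); bounds `RK`, `R` of `K`, `Y`
(`IsCompact.isBounded`, `Bornology.IsBounded.exists_norm_le`); `ae_map_mem` gives `‖T x‖ ≤ R` a.e.;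
`mapCost_ne_top`; `permMono_injective` + `permMono_of_injective` (with `ae_goodPt` turned into
`volume (K \ {z | GoodPt K T z}) = 0` by `ae_restrict_iff'`/`measure_mono_null`) give
`PermMono {z | GoodPt K T z} T`, hence `PermMono G T` for
`G = {z | GoodPt K T z ∧ ‖T z‖ ≤ R}`. `G` is conull for `unif K` (`ae_unif_of_ae_restrict`), and
`unif K ≠ 0` because `volume K ≠ 0` (nonempty interior) so `G` is nonempty. Conclude by
`exists_potential_of_permMono`. -/
theorem IsOptMap.isBrenierMap [NeZero d] {K : Set (E d)} (hK : IsCompact K)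
    (hint : (interior K).Nonempty) {Y : Set (E d)} (hY : IsCompact Y) {μ : Measure (E d)}
    (hμ : μ Yᶜ = 0) {T : E d → E d} (hT : IsOptMap (unif K) μ T) : IsBrenierMap K μ T := by
  have hKm : MeasurableSet K := hK.measurableSet
  have hKtop : volume K ≠ ∞ := hK.measure_lt_top.ne
  have hK0 : volume K ≠ 0 := by
    have h1 : 0 < volume (interior K) := isOpen_interior.measure_pos volume hint
    exact (h1.trans_le (measure_mono interior_subset)).ne'
  obtain ⟨RK, hRK⟩ := hK.isBounded.exists_norm_le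
  obtain ⟨R, hR⟩ := hY.isBounded.exists_norm_le
  have hTY := ae_map_mem (K := K) hY.measurableSet hμ hT.1 hT.2.1
  have hTR : ∀ᵐ x ∂(unif K), ‖T x‖ ≤ R := hTY.mono (fun x hx => hR _ hx)
  have hfin := mapCost_ne_top hKm hRK hTR
  have hgood := ae_goodPt hKm hT.1
  have hG0 : volume (K \ {z | GoodPt K T z}) = 0 := by
    have h1 := (ae_restrict_iff' hKm).1 hgood
    refine measure_mono_null ?_ (ae_iff.1 h1)
    intro x hx
    simp only [Set.mem_setOf_eq, Classical.not_imp]
    exact ⟨hx.1, hx.2⟩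
  have hPM : PermMono {z | GoodPt K T z} T :=
    permMono_of_injective hG0 (fun N c hc hg σ => permMono_injective hKm hKtop hT hfin c hc hg σ)
  have hPMG : PermMono {z | GoodPt K T z ∧ ‖T z‖ ≤ R} T :=
    fun N x hx σ => hPM N x (fun i => (hx i).1) σ
  have hGae : ∀ᵐ x ∂(unif K), x ∈ {z | GoodPt K T z ∧ ‖T z‖ ≤ R} := by
    filter_upwards [ae_unif_of_ae_restrict hgood, hTR] with x h1 h2 using ⟨h1, h2⟩
  have hne : ({z | GoodPt K T z ∧ ‖T z‖ ≤ R} : Set (E d)).Nonempty := by
    have h0 : unif K ≠ 0 := by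
      intro h
      have h1 : unif K Set.univ = 0 := by rw [h]; rfl
      rw [unif, Measure.smul_apply, Measure.restrict_apply MeasurableSet.univ, Set.univ_inter,
        smul_eq_mul] at h1
      rcases mul_eq_zero.1 h1 with h2 | h2
      · exact hKtop (ENNReal.inv_eq_zero.1 h2)
      · exact hK0 h2
    haveI : (ae (unif K)).NeBot := ae_neBot.2 h0
    exact hGae.exists
  obtain ⟨φ, hφ⟩ := exists_potential_of_permMono hne (fun x hx => hx.2) hPMG
  exact ⟨hT.1, hT.2.1, φ, hGae.mono (fun x hx x' _ => hφ x hx x')⟩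

end Vale.Agent.Lib.P074
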