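import Vale.Agent.Lib.P074S.PotTau

open MeasureTheory Filter Topology
open scoped ENNReal NNReal RealInnerProductSpace

namespace Vale.Agent.Lib.P074

variable {d : ℕ}

/-- TASK A4. Decomposition of an integral over `K` of `F (x, T (tau x))`:
`K` is the disjoint union of `K \ ⋃ i, P i` and the pieces `P i = {x | x - c i ∈ A}`
(pairwise disjoint by `hdisj`, contained in `K` by `hAK`, measurable). On the first part `tau x = x`
(`tau_apply_off`), on `P i` substitute `x = c i + a` (translation invariance, e.g.
`lintegral_add_left_eq_self` applied to an indicator function, or `MeasurePreserving.setLIntegral_comp_preimage`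
with `measurePreserving_add_left volume (c i)`) and use `tau_apply_piece`.
Useful: `lintegral_inter_add_diff`, `lintegral_iUnion` / `lintegral_biUnion_finset`. -/
theorem lintegral_swap {K : Set (E d)} (hK : MeasurableSet K) {N : ℕ} (c : Fin N → E d)
    {A : Set (E d)} (hA : MeasurableSet A)
    (hdisj : ∀ i j, i ≠ j → ∀ a ∈ A, ∀ b ∈ A, c i + a ≠ c j + b)
    (hAK : ∀ i, ∀ a ∈ A, c i + a ∈ K) (σ : Equiv.Perm (Fin N))
    {T : E d → E d} (hT : Measurable T) {F : E d × E d → ℝ≥0∞} (hF : Measurable F) :
    ∫⁻ x in K, F (x, T (tau c A σ x)) =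
      (∫⁻ x in K \ ⋃ i, {x : E d | x - c i ∈ A}, F (x, T x))
        + ∑ i, ∫⁻ a in A, F (c i + a, T (c (σ i) + a)) := by
  set P : Fin N → Set (E d) := fun i => {x : E d | x - c i ∈ A} with hP
  have hPm : ∀ i, MeasurableSet (P i) := fun i =>
    (measurable_id.sub_const (c i)) hA
  have hUm : MeasurableSet (⋃ i, P i) := MeasurableSet.iUnion hPm
  have hUK : (⋃ i, P i) ⊆ K := by
    intro x hx
    obtain ⟨i, hi⟩ := Set.mem_iUnion.1 hx
    have := hAK i (x - c i) hi
    simpa using this
  have hPd : Pairwise (Function.onFun Disjoint P) := by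
    intro i j hij
    refine Set.disjoint_left.2 ?_
    intro x hxi hxj
    exact hdisj i j hij (x - c i) hxi (x - c j) hxj (by simp)
  have hfm : Measurable (fun x : E d => F (x, T (tau c A σ x))) :=
    hF.comp (measurable_id.prodMk (hT.comp (measurable_tau c hA σ)))
  have h1 := lintegral_inter_add_sdiff (μ := volume)
    (fun x : E d => F (x, T (tau c A σ x))) K hUm
  have hKU : K ∩ (⋃ i, P i) = ⋃ i, P i := Set.inter_eq_right.2 hUK
  rw [hKU] at h1
  rw [← h1, add_comm]
  congr 1
  · refine setLIntegral_congr_fun (hK.diff hUm) ?_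
    intro x hx
    have hx' : ∀ i, x - c i ∉ A := by
      intro i hi
      exact hx.2 (Set.mem_iUnion.2 ⟨i, hi⟩)
    simp only [tau_apply_off c σ hx']
  · rw [lintegral_iUnion hPm hPd, tsum_fintype]
    refine Finset.sum_congr rfl ?_
    intro i _
    have h2 := (measurePreserving_add_left (volume : Measure (E d)) (c i)).setLIntegral_comp_preimage
      (hPm i) hfm
    have hpre : (fun a : E d => c i + a) ⁻¹' (P i) = A := by
      ext a
      simp [hP]
    rw [hpre] at h2
    rw [← h2]
    refine setLIntegral_congr_fun hA ?_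
    intro a ha
    simp only [tau_apply_piece c hdisj σ i ha]

end Vale.Agent.Lib.P074
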