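import Vale.Agent.Lib.P074S.PotDefs

open MeasureTheory Filter Topology
open scoped ENNReal NNReal RealInnerProductSpace

namespace Vale.Agent.Lib.P074

variable {d : ℕ}

/-- TASK A3a. -/
theorem measurable_tau {N : ℕ} (c : Fin N → E d) {A : Set (E d)} (hA : MeasurableSet A)
    (σ : Equiv.Perm (Fin N)) : Measurable (tau c A σ) := by
  unfold tau
  refine measurable_id.add ?_
  refine Finset.measurable_sum _ ?_
  intro i _
  refine Measurable.indicator measurable_const ?_
  exact (measurable_id.sub_const (c i)) hA

/-- TASK A3b. Value of `tau` on the piece `c i + A`. -/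
theorem tau_apply_piece {N : ℕ} (c : Fin N → E d) {A : Set (E d)}
    (hdisj : ∀ i j, i ≠ j → ∀ a ∈ A, ∀ b ∈ A, c i + a ≠ c j + b)
    (σ : Equiv.Perm (Fin N)) (i : Fin N) {a : E d} (ha : a ∈ A) :
    tau c A σ (c i + a) = c (σ i) + a := by
  unfold tau
  rw [Finset.sum_eq_single i]
  · rw [Set.indicator_of_mem]
    · abel
    · show c i + a - c i ∈ A
      simpa using ha
  · intro j _ hji
    rw [Set.indicator_of_notMem]
    intro hj
    have hj' : c i + a - c j ∈ A := hj
    exact hdisj i j (Ne.symm hji) a ha _ hj' (by abel)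
  · intro h
    exact absurd (Finset.mem_univ i) h

/-- TASK A3c. Value of `tau` off the pieces. -/
theorem tau_apply_off {N : ℕ} (c : Fin N → E d) {A : Set (E d)}
    (σ : Equiv.Perm (Fin N)) {x : E d} (hx : ∀ i, x - c i ∉ A) :
    tau c A σ x = x := by
  unfold tau
  rw [Finset.sum_eq_zero]
  · simp
  · intro i _
    rw [Set.indicator_of_notMem]
    exact hx i

/-- TASK A3d. For the identity permutation `tau` is the identity. -/
theorem tau_one {N : ℕ} (c : Fin N → E d) (A : Set (E d)) (x : E d) :
    tau c A 1 x = x := by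
  unfold tau
  rw [Finset.sum_eq_zero]
  · simp
  · intro i _
    simp

end Vale.Agent.Lib.P074
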