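import Vale.Agent.Lib.P074S.Defs

open MeasureTheory Metric
open scoped ENNReal NNReal RealInnerProductSpace

namespace Vale.Agent.Lib.P074

variable {d : ℕ} {ι : Type} [Fintype ι]

/-- Piecewise translation: on the ball `closedBall (w i) ε` translate by `t i`, elsewhere do
nothing (the balls will be pairwise disjoint). -/
noncomputable def pwTrans (w t : ι → E d) (ε : ℝ) (z : E d) : E d :=
  z + ∑ i, (closedBall (w i) ε).indicator (fun _ => t i) z

/-- TASK X2 -/
theorem measurable_pwTrans (w t : ι → E d) (ε : ℝ) : Measurable (pwTrans w t ε) := by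
  unfold pwTrans
  exact measurable_id.add (Finset.measurable_sum _ fun i _ =>
    measurable_const.indicator isClosed_closedBall.measurableSet)

/-- TASK X2 -/
theorem pwTrans_of_mem {w t : ι → E d} {ε : ℝ}
    (hdisj : Pairwise fun i j => Disjoint (closedBall (w i) ε) (closedBall (w j) ε))
    {i : ι} {z : E d} (hz : z ∈ closedBall (w i) ε) : pwTrans w t ε z = z + t i := by
  classical
  unfold pwTrans
  congr 1
  rw [Finset.sum_eq_single i]
  · exact Set.indicator_of_mem hz _
  · intro j _ hj
    exact Set.indicator_of_notMem (Set.disjoint_left.1 (hdisj hj.symm) hz) _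
  · intro h
    exact absurd (Finset.mem_univ i) h

/-- TASK X2 -/
theorem pwTrans_of_notMem {w t : ι → E d} {ε : ℝ} {z : E d}
    (hz : ∀ i, z ∉ closedBall (w i) ε) : pwTrans w t ε z = z := by
  unfold pwTrans
  rw [Finset.sum_eq_zero, add_zero]
  intro i _
  exact Set.indicator_of_notMem (hz i) _

/-- translating by `w j - w i` maps the ball around `w i` to the ball around `w j` -/
lemma add_sub_mem_closedBall_iff (a b z : E d) (ε : ℝ) :
    z + (b - a) ∈ closedBall b ε ↔ z ∈ closedBall a ε := by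
  rw [mem_closedBall, mem_closedBall, dist_eq_norm, dist_eq_norm]
  have : z + (b - a) - b = z - a := by abel
  rw [this]

/-- TASK X2: the piecewise translation along `π` undoes the one along `π.symm`. -/
theorem pwTrans_pwTrans_symm (π : Equiv.Perm ι) {w : ι → E d} {ε : ℝ}
    (hdisj : Pairwise fun i j => Disjoint (closedBall (w i) ε) (closedBall (w j) ε)) (z : E d) :
    pwTrans w (fun i => w (π i) - w i) ε (pwTrans w (fun i => w (π.symm i) - w i) ε z) = z := by
  by_cases h : ∃ i, z ∈ closedBall (w i) ε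
  · obtain ⟨i, hi⟩ := h
    rw [pwTrans_of_mem hdisj hi]
    have h2 : z + (w (π.symm i) - w i) ∈ closedBall (w (π.symm i)) ε :=
      (add_sub_mem_closedBall_iff _ _ _ _).2 hi
    rw [pwTrans_of_mem hdisj h2, Equiv.apply_symm_apply]
    abel
  · push_neg at h
    rw [pwTrans_of_notMem h, pwTrans_of_notMem h]

/-- TASK X2: permuting disjoint balls of equal radius inside `K` by translations preserves Lebesgue
measure on `K`. For measurable `A`: `K ∩ σ⁻¹ A` is the disjoint union of `(K \ ⋃ B_i) ∩ A` and of the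
sets `B_i ∩ (· + t i)⁻¹ A = (· + t i)⁻¹ (B_{π i} ∩ A)`, use `measure_preimage_add_right` and reindex
by `π`. -/
theorem measurePreserving_pwTrans (π : Equiv.Perm ι) {w : ι → E d} {ε : ℝ} {K : Set (E d)}
    (hK : MeasurableSet K) (hsub : ∀ i, closedBall (w i) ε ⊆ K)
    (hdisj : Pairwise fun i j => Disjoint (closedBall (w i) ε) (closedBall (w j) ε)) :
    MeasurePreserving (pwTrans w (fun i => w (π i) - w i) ε)
      (volume.restrict K) (volume.restrict K) := by
  set f := pwTrans w (fun i => w (π i) - w i) ε with hf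
  have hfm : Measurable f := measurable_pwTrans _ _ _
  refine ⟨hfm, ?_⟩
  have hBm : ∀ i, MeasurableSet (closedBall (w i) ε) := fun i => isClosed_closedBall.measurableSet
  -- additivity
  have key : ∀ (Y : ι → Set (E d)), (∀ i, MeasurableSet (Y i)) →
      (∀ i, Y i ⊆ closedBall (w i) ε) → ∀ X0 : Set (E d), X0 ⊆ (⋃ i, closedBall (w i) ε)ᶜ →
      volume (X0 ∪ ⋃ i, Y i) = volume X0 + ∑ i, volume (Y i) := by
    intro Y hYm hYB X0 hX0
    rw [measure_union _ (MeasurableSet.iUnion hYm), measure_iUnion _ hYm, tsum_fintype]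
    · intro i j hij
      exact (hdisj hij).mono (hYB i) (hYB j)
    · rw [Set.disjoint_left]
      intro z hz hz'
      obtain ⟨i, hi⟩ := Set.mem_iUnion.1 hz'
      exact hX0 hz (Set.mem_iUnion.2 ⟨i, hYB i hi⟩)
  ext A hA
  rw [Measure.map_apply hfm hA, Measure.restrict_apply (hfm hA), Measure.restrict_apply hA]
  have e1 : f ⁻¹' A ∩ K = (A ∩ K ∩ (⋃ i, closedBall (w i) ε)ᶜ)
      ∪ ⋃ i, (closedBall (w i) ε ∩ (fun z => z + (w (π i) - w i)) ⁻¹' A) := by
    ext z
    constructor
    · rintro ⟨hzA, hzK⟩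
      by_cases h : ∃ i, z ∈ closedBall (w i) ε
      · obtain ⟨i, hi⟩ := h
        right
        refine Set.mem_iUnion.2 ⟨i, hi, ?_⟩
        have : f z = z + (w (π i) - w i) := pwTrans_of_mem hdisj hi
        rw [Set.mem_preimage, this] at hzA
        exact hzA
      · left
        push_neg at h
        have : f z = z := pwTrans_of_notMem h
        rw [Set.mem_preimage, this] at hzA
        refine ⟨⟨hzA, hzK⟩, ?_⟩
        intro hz
        obtain ⟨i, hi⟩ := Set.mem_iUnion.1 hz
        exact h i hi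
    · rintro (⟨⟨hzA, hzK⟩, hzU⟩ | hz)
      · have h : ∀ i, z ∉ closedBall (w i) ε := fun i hi => hzU (Set.mem_iUnion.2 ⟨i, hi⟩)
        have : f z = z := pwTrans_of_notMem h
        exact ⟨by rw [Set.mem_preimage, this]; exact hzA, hzK⟩
      · obtain ⟨i, hi, hiA⟩ := Set.mem_iUnion.1 hz
        have : f z = z + (w (π i) - w i) := pwTrans_of_mem hdisj hi
        exact ⟨by rw [Set.mem_preimage, this]; exact hiA, hsub i hi⟩
  have e2 : A ∩ K = (A ∩ K ∩ (⋃ i, closedBall (w i) ε)ᶜ)
      ∪ ⋃ i, (closedBall (w i) ε ∩ A) := by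
    ext z
    constructor
    · rintro ⟨hzA, hzK⟩
      by_cases h : ∃ i, z ∈ closedBall (w i) ε
      · obtain ⟨i, hi⟩ := h
        right
        exact Set.mem_iUnion.2 ⟨i, hi, hzA⟩
      · left
        push_neg at h
        refine ⟨⟨hzA, hzK⟩, ?_⟩
        intro hz
        obtain ⟨i, hi⟩ := Set.mem_iUnion.1 hz
        exact h i hi
    · rintro (⟨⟨hzA, hzK⟩, -⟩ | hz)
      · exact ⟨hzA, hzK⟩
      · obtain ⟨i, hi, hiA⟩ := Set.mem_iUnion.1 hz
        exact ⟨hiA, hsub i hi⟩
  have hadd : ∀ i, Measurable (fun z : E d => z + (w (π i) - w i)) := fun i =>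
    measurable_id.add measurable_const
  have h1 : volume (f ⁻¹' A ∩ K) = volume (A ∩ K ∩ (⋃ i, closedBall (w i) ε)ᶜ)
      + ∑ i, volume (closedBall (w i) ε ∩ (fun z => z + (w (π i) - w i)) ⁻¹' A) := by
    rw [e1]
    exact key _ (fun i => (hBm i).inter (hadd i hA)) (fun i => Set.inter_subset_left) _
      Set.inter_subset_right
  have h2 : volume (A ∩ K) = volume (A ∩ K ∩ (⋃ i, closedBall (w i) ε)ᶜ)
      + ∑ i, volume (closedBall (w i) ε ∩ A) := by
    conv_lhs => rw [e2]
    exact key _ (fun i => (hBm i).inter hA) (fun i => Set.inter_subset_left) _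
      Set.inter_subset_right
  rw [h1, h2]
  congr 1
  rw [← Equiv.sum_comp π (fun i => volume (closedBall (w i) ε ∩ A))]
  apply Finset.sum_congr rfl
  intro i _
  rw [← measure_preimage_add_right volume (w (π i) - w i) (closedBall (w (π i)) ε ∩ A)]
  congr 1
  ext z
  simp only [Set.mem_inter_iff, Set.mem_preimage]
  rw [add_sub_mem_closedBall_iff]

end Vale.Agent.Lib.P074
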