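import Mathlib

namespace Vale.Agent.Lib.P074

/-- Real-variable endgame: the inequality cannot hold for all small `ε` when `β > 1/4`. -/
lemma no_const_W1 (C β : ℝ) (hC : 0 ≤ C) (hβ : 1/4 < β)
    (h : ∀ ε : ℝ, 0 < ε → ε ≤ 1/2 → (ε / 16) ^ (1/2 : ℝ) ≤ C * (4 * ε ^ 2) ^ β) :
    False := by
  set q : ℝ := 2 * β - 1/2 with hq
  have hq0 : 0 < q := by rw [hq]; linarith
  set w : ℝ := (1 / (6 * (C + 1))) ^ (1 / q) with hw
  have hb0 : 0 < 1 / (6 * (C + 1)) := by positivity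
  have hw0 : 0 < w := Real.rpow_pos_of_pos hb0 _
  set ε : ℝ := min (1/2) (w / 2) with hε
  have hε0 : 0 < ε := lt_min (by norm_num) (by linarith)
  have hε1 : ε ≤ 1/2 := min_le_left _ _
  have hε2 : 2 * ε ≤ w := by
    have : ε ≤ w / 2 := min_le_right _ _
    linarith
  have h1 := h ε hε0 hε1
  have h2ε : 0 < 2 * ε := by linarith
  have e4 : 4 * ε ^ 2 = (2 * ε) ^ (2 : ℝ) := by
    rw [show (2 : ℝ) = ((2 : ℕ) : ℝ) by norm_num, Real.rpow_natCast]; ring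
  have eR : (4 * ε ^ 2) ^ β = (2 * ε) ^ (1/2 : ℝ) * (2 * ε) ^ q := by
    rw [e4, ← Real.rpow_mul h2ε.le, ← Real.rpow_add h2ε]
    congr 1
    rw [hq]; ring
  have eL : (ε / 16) ^ (1/2 : ℝ) = (2 * ε) ^ (1/2 : ℝ) * (1 / 32) ^ (1/2 : ℝ) := by
    rw [← Real.mul_rpow h2ε.le (by norm_num)]
    congr 1
    ring
  rw [eR, eL] at h1
  have hp : 0 < (2 * ε) ^ (1/2 : ℝ) := Real.rpow_pos_of_pos h2ε _
  have h3 : (1 / 32 : ℝ) ^ (1/2 : ℝ) ≤ C * (2 * ε) ^ q := by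
    have : (2 * ε) ^ (1/2 : ℝ) * (1 / 32) ^ (1/2 : ℝ)
        ≤ (2 * ε) ^ (1/2 : ℝ) * (C * (2 * ε) ^ q) := by
      calc _ ≤ C * ((2 * ε) ^ (1/2 : ℝ) * (2 * ε) ^ q) := h1
        _ = _ := by ring
    exact le_of_mul_le_mul_left this hp
  have h5 : (2 * ε) ^ q ≤ w ^ q := Real.rpow_le_rpow h2ε.le hε2 hq0.le
  have h6 : w ^ q = 1 / (6 * (C + 1)) := by
    rw [hw, ← Real.rpow_mul hb0.le, one_div_mul_cancel hq0.ne', Real.rpow_one]
  have h7 : C * (2 * ε) ^ q ≤ C * (1 / (6 * (C + 1))) := by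
    apply mul_le_mul_of_nonneg_left _ hC
    rw [← h6]; exact h5
  have h8 : C * (1 / (6 * (C + 1))) < 1 / 6 := by
    rw [mul_one_div, div_lt_div_iff₀ (by positivity) (by norm_num)]
    nlinarith
  have h9 : (1 / 6 : ℝ) < (1 / 32 : ℝ) ^ (1/2 : ℝ) := by
    rw [← Real.sqrt_eq_rpow]
    apply Real.lt_sqrt_of_sq_lt
    norm_num
  linarith

end Vale.Agent.Lib.P074
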