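import Vale.Agent.Lib.P074.Main
import Vale.Agent.Lib.P074S.Defs

open MeasureTheory
open scoped ENNReal NNReal RealInnerProductSpace

namespace Vale.Agent.Lib.P074

variable {d : ℕ}

/-- The three-atom maps are Brenier maps: potential
`φ x = ⟪x + single i1 (s/2), Tmap i0 i1 s ε x⟫`. -/
lemma isBrenierMap_Tmap (i0 i1 : Fin d) (h01 : i0 ≠ i1) (s ε : ℝ) (hs : s * s = 1) :
    IsBrenierMap (cube d) ((rho d).map (Tmap i0 i1 s ε)) (Tmap i0 i1 s ε) := by
  refine ⟨measurable_Tmap i0 i1 s ε, by rw [unif_cube], ?_⟩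
  refine ⟨fun x => ⟪x + EuclideanSpace.single i1 (s / 2), Tmap i0 i1 s ε x⟫, ?_⟩
  refine Filter.Eventually.of_forall ?_
  intro x x' _
  have h := Tmap_argmax i0 i1 h01 s ε hs x' (Tmap i0 i1 s ε x) (Tmap_mem i0 i1 s ε x)
  refine le_trans (le_of_eq ?_) h
  rw [real_inner_comm (x' - x) (Tmap i0 i1 s ε x), ← inner_add_left]
  congr 1
  abel

end Vale.Agent.Lib.P074
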