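import Vale.Agent.Lib.P074S.SharpA
import Vale.Agent.Lib.P074S.SharpB
import Vale.Agent.Lib.P074S.SharpC

open MeasureTheory
open scoped ENNReal NNReal RealInnerProductSpace

namespace Vale.Agent.Lib.P074

variable {d : ℕ}

/-- With respect to `W1` no exponent above `1/4` is possible. -/
theorem W1_exponent_sharp (d : ℕ) (hd : 2 ≤ d) (β : ℝ) (hβ : 1/4 < β) :
    ¬ ∃ C : ℝ≥0, ∀ μ ν : Measure (E d), μ (Metric.closedBall (0 : E d) 1)ᶜ = 0 →
      ν (Metric.closedBall (0 : E d) 1)ᶜ = 0 →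
      ∀ T S : E d → E d, IsBrenierMap (cube d) μ T → IsBrenierMap (cube d) ν S →
        L2dist (unif (cube d)) T S ≤ C * W1 μ ν ^ β := by
  rintro ⟨C, hC⟩
  let i0 : Fin d := ⟨0, by omega⟩
  let i1 : Fin d := ⟨1, by omega⟩
  have h01 : i0 ≠ i1 := by simp [i0, i1, Fin.ext_iff]
  have hβ0 : 0 < β := by linarith
  apply no_const_W1 C β (NNReal.coe_nonneg C) hβ
  intro ε hε0 hε
  have hmain := hC _ _
    (map_Tmap_compl_ball i0 i1 1 ε (by norm_num) hε0.le (by linarith))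
    (map_Tmap_compl_ball i0 i1 (-1) ε (by norm_num) hε0.le (by linarith))
    _ _ (isBrenierMap_Tmap i0 i1 h01 1 ε (by norm_num))
    (isBrenierMap_Tmap i0 i1 h01 (-1) ε (by norm_num))
  rw [unif_cube] at hmain
  have hlow := L2dist_ge i0 i1 h01 ε hε0 hε
  have hup := W1_le i0 i1 h01 1 ε (by norm_num) hε0.le hε
  have hchain : (ENNReal.ofReal (ε / 16)) ^ (1 / 2 : ℝ)
      ≤ (C : ℝ≥0∞) * (ENNReal.ofReal (4 * ε ^ 2)) ^ β := by
    refine hlow.trans (hmain.trans ?_)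
    gcongr
  have p1 : 0 < ε / 16 := by positivity
  have p2 : 0 < 4 * ε ^ 2 := by positivity
  rw [ENNReal.ofReal_rpow_of_pos p1, ENNReal.ofReal_rpow_of_pos p2,
    ← ENNReal.ofReal_coe_nnreal, ← ENNReal.ofReal_mul (NNReal.coe_nonneg C)] at hchain
  exact (ENNReal.ofReal_le_ofReal_iff (by positivity)).1 hchain

end Vale.Agent.Lib.P074
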