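import Vale.Agent.Lib.P074.Main
import Vale.Agent.Lib.P074S.Defs

open MeasureTheory
open scoped ENNReal NNReal RealInnerProductSpace

namespace Vale.Agent.Lib.P074

variable {d : ℕ}

/-- Same coupling `y ↦ (y, Rfl i1 y)` as in `W2_le`:
the integrand is `≤ 2 ε` on the slab of volume `2 ε` and zero elsewhere. -/
lemma W1_le (i0 i1 : Fin d) (h01 : i0 ≠ i1) (s ε : ℝ) (hs : s * s = 1)
    (hε0 : 0 ≤ ε) (hε : ε ≤ 1/2) :
    W1 ((rho d).map (Tmap i0 i1 s ε)) ((rho d).map (Tmap i0 i1 (-s) ε))
      ≤ ENNReal.ofReal (4 * ε ^ 2) := by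
  have hs' : |s| = 1 := by
    have : |s| * |s| = 1 := by rw [← abs_mul, hs, abs_one]
    nlinarith [abs_nonneg s]
  have hR : Measurable (Rfl i1 : E d → E d) := (Rfl i1).continuous.measurable
  have hT := measurable_Tmap i0 i1 s ε
  unfold W1
  have hpair : Measurable (fun y : E d => (y, Rfl i1 y)) := measurable_id.prodMk hR
  let π : Measure (E d × E d) := ((rho d).map (Tmap i0 i1 s ε)).map (fun y => (y, Rfl i1 y))
  have hπ1 : π.map Prod.fst = (rho d).map (Tmap i0 i1 s ε) := by
    simp only [π]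
    rw [Measure.map_map measurable_fst hpair]
    exact Measure.map_id
  have hπ2 : π.map Prod.snd = (rho d).map (Tmap i0 i1 (-s) ε) := by
    simp only [π]
    rw [Measure.map_map measurable_snd hpair, map_Tmap_neg i0 i1 h01]
    rfl
  refine (iInf_le _ ⟨π, hπ1, hπ2⟩).trans ?_
  have hcm : Measurable (fun p : E d × E d => ENNReal.ofReal (‖p.1 - p.2‖)) := by
    apply ENNReal.measurable_ofReal.comp
    fun_prop
  simp only [π]
  rw [lintegral_map hcm hpair]
  have hcm2 : Measurable (fun a : E d => ENNReal.ofReal (‖(a, (Rfl i1) a).1 - (a, (Rfl i1) a).2‖)) :=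
    hcm.comp hpair
  rw [lintegral_map hcm2 hT]
  dsimp only
  -- pointwise bound
  set slab : Set (E d) := box2 i0 i1 (-ε) ε (-(1/2)) (1/2) with hslab
  have hslabm : MeasurableSet slab := measurableSet_box _ _
  have hpt : ∀ x ∈ cube d, ENNReal.ofReal (‖Tmap i0 i1 s ε x - Rfl i1 (Tmap i0 i1 s ε x)‖)
      ≤ slab.indicator (fun _ => ENNReal.ofReal (2 * ε)) x := by
    intro x hx
    unfold Tmap
    split_ifs with h1 h2
    · have hx1 := hx i1
      have hsx : s * x i1 ≤ 1/2 := by
        have : |s * x i1| ≤ 1/2 := by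
          rw [abs_mul, hs', one_mul]; exact abs_le.2 hx1
        exact (le_abs_self _).trans this
      have hle : |x i0| ≤ ε := by
        calc |x i0| ≤ ε * (1/2 + s * x i1) := h1
          _ ≤ ε * 1 := by apply mul_le_mul_of_nonneg_left _ hε0; linarith
          _ = ε := mul_one _
      have hmem : x ∈ slab := mem_box2_of hx (abs_le.1 hle) hx1
      rw [Set.indicator_of_mem hmem]
      apply ENNReal.ofReal_le_ofReal
      rw [Rfl_single, if_pos rfl, ← PiLp.single_sub, PiLp.norm_single, Real.norm_eq_abs]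
      have : s * ε - -(s * ε) = s * (2 * ε) := by ring
      rw [this, abs_mul, hs', one_mul, abs_of_nonneg (by linarith)]
    · rw [Rfl_single, if_neg h01]; simp
    · rw [Rfl_single, if_neg h01]; simp
  calc ∫⁻ x, ENNReal.ofReal (‖Tmap i0 i1 s ε x - Rfl i1 (Tmap i0 i1 s ε x)‖) ∂(rho d)
      ≤ ∫⁻ x, slab.indicator (fun _ => ENNReal.ofReal (2 * ε)) x ∂(rho d) :=
        setLIntegral_mono (measurable_const.indicator hslabm) hpt
    _ = ENNReal.ofReal (2 * ε) * (rho d) slab := lintegral_indicator_const hslabm _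
    _ ≤ ENNReal.ofReal (2 * ε) * volume slab := by
        gcongr
        exact Measure.restrict_le_self
    _ = ENNReal.ofReal (4 * ε ^ 2) := by
        rw [hslab, volume_box2 i0 i1 h01, ← ENNReal.ofReal_mul (by linarith),
          ← ENNReal.ofReal_mul (by positivity)]
        congr 1
        ring

end Vale.Agent.Lib.P074
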