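import Vale.Agent.Lib.P074S.Defs

open MeasureTheory
open scoped ENNReal NNReal RealInnerProductSpace

namespace Vale.Agent.Lib.P074

variable {d : ℕ}

/-- TASK E2. Cauchy-Schwarz for each coupling (which is a probability measure). -/
theorem W1_le_W2 (μ ν : Measure (E d)) [IsProbabilityMeasure μ] : W1 μ ν ≤ W2 μ ν := by
  unfold W1 W2
  rw [one_div, ENNReal.le_rpow_inv_iff (by norm_num : (0 : ℝ) < 2)]
  refine le_iInf fun π => ?_
  have huniv : π.1 Set.univ = 1 := by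
    have h1 : (π.1.map Prod.fst) Set.univ = μ Set.univ := by rw [π.2.1]
    rw [Measure.map_apply measurable_fst MeasurableSet.univ, Set.preimage_univ] at h1
    rw [h1]; exact measure_univ
  have hmeas : Measurable (fun p : E d × E d => ENNReal.ofReal ‖p.1 - p.2‖) := by
    fun_prop
  have hol := ENNReal.lintegral_mul_le_Lp_mul_Lq π.1 (Real.HolderConjugate.two_two)
    hmeas.aemeasurable (aemeasurable_const (b := (1 : ℝ≥0∞)))
  simp only [Pi.mul_apply, mul_one] at hol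
  have e2 : ∫⁻ p, (ENNReal.ofReal ‖p.1 - p.2‖) ^ (2 : ℝ) ∂π.1
      = ∫⁻ p, ENNReal.ofReal (‖p.1 - p.2‖ ^ 2) ∂π.1 := by
    apply lintegral_congr
    intro p
    rw [ENNReal.ofReal_rpow_of_nonneg (norm_nonneg _) (by norm_num)]
    congr 1
    exact Real.rpow_two _
  have e3 : (∫⁻ _p : E d × E d, (1 : ℝ≥0∞) ^ (2 : ℝ) ∂π.1) ^ (1 / (2 : ℝ)) = 1 := by
    simp [huniv]
  rw [e2, e3, mul_one, one_div] at hol
  calc (⨅ π : {π : Measure (E d × E d) // π.map Prod.fst = μ ∧ π.map Prod.snd = ν},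
          ∫⁻ p, ENNReal.ofReal ‖p.1 - p.2‖ ∂π.1) ^ (2 : ℝ)
      ≤ (∫⁻ p, ENNReal.ofReal ‖p.1 - p.2‖ ∂π.1) ^ (2 : ℝ) :=
        ENNReal.rpow_le_rpow (iInf_le _ π) (by norm_num)
    _ ≤ ∫⁻ p, ENNReal.ofReal (‖p.1 - p.2‖ ^ 2) ∂π.1 :=
        (ENNReal.le_rpow_inv_iff (by norm_num : (0 : ℝ) < 2)).1 hol

end Vale.Agent.Lib.P074
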