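import Vale.Agent.Lib.P074S.LTwo
import Vale.Agent.Lib.P074S.Conv
import Vale.Agent.Lib.P074S.WOne

open MeasureTheory
open scoped ENNReal NNReal RealInnerProductSpace

namespace Vale.Agent.Lib.P074

variable {d : ℕ}

/-- TASK F1. Stability with respect to `W1`, exponent `1/4`; no convexity of `K` is needed.
Take `R, L` bounds of `K` (plus one) and `Y`, `C = NNReal.sqrt (Cc K R L).toNNReal + 1`, use
`l2sq_bound`, `L2dist_le_of_real`, `le_mul_iInf_rpow`. -/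
theorem stab_W1 {K : Set (E d)} (hK : IsCompact K) (hint : (interior K).Nonempty)
    {Y : Set (E d)} (hY : IsCompact Y) :
    ∃ C : ℝ≥0, ∀ μ ν : Measure (E d), μ Yᶜ = 0 → ν Yᶜ = 0 →
      ∀ T S : E d → E d, IsBrenierMap K μ T → IsBrenierMap K ν S →
        L2dist (unif K) T S ≤ C * W1 μ ν ^ (1 / 4 : ℝ) := by
  obtain ⟨R0, hR0⟩ := hK.isBounded.exists_norm_le
  obtain ⟨L0, hL0⟩ := hY.isBounded.exists_norm_le
  set R : ℝ≥0 := (R0 + 1).toNNReal with hR
  set L : ℝ≥0 := L0.toNNReal with hL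
  have hKR : ∀ x ∈ K, ‖x‖ + 1 ≤ R := fun x hx =>
    le_trans (by linarith [hR0 x hx]) (Real.le_coe_toNNReal (R0 + 1))
  have hYL : ∀ y ∈ Y, ‖y‖ ≤ L := fun y hy => le_trans (hL0 y hy) (Real.le_coe_toNNReal L0)
  have := isProbabilityMeasure_unif hK hint
  refine ⟨NNReal.sqrt (Cc K R L).toNNReal + 1, ?_⟩
  intro μ ν hμ hν T S hT hS
  have hTL : ∀ᵐ x ∂(unif K), ‖T x‖ ≤ L := by
    filter_upwards [ae_map_of_ae hT.1 hT.2.1 hY.measurableSet hμ] with x hx
    exact hYL _ hx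
  have hSL : ∀ᵐ x ∂(unif K), ‖S x‖ ≤ L := by
    filter_upwards [ae_map_of_ae hS.1 hS.2.1 hY.measurableSet hν] with x hx
    exact hYL _ hx
  unfold W1
  refine le_mul_iInf_rpow _ _ _ (by positivity) (1 / 4 : ℝ) (by norm_num) ?_
  rintro ⟨π, h1, h2⟩
  have hb := l2sq_bound hK hint R L hKR hT hS hTL hSL π h1 h2
  have hc : (((Cc K R L).toNNReal : ℝ≥0) : ℝ) = Cc K R L := Real.coe_toNNReal _ (Cc_nonneg K R L)
  have h3 := L2dist_le_of_real (ρ := unif K) hT.1 hS.1 L hTL hSL π (Cc K R L).toNNReal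
    (by rw [hc]; exact hb)
  refine le_trans h3 ?_
  gcongr
  exact le_self_add

/-- TASK F2. Stability with respect to `W2`. -/
theorem stab_W2 {K : Set (E d)} (hK : IsCompact K) (hint : (interior K).Nonempty)
    {Y : Set (E d)} (hY : IsCompact Y) :
    ∃ C : ℝ≥0, ∀ μ ν : Measure (E d), μ Yᶜ = 0 → ν Yᶜ = 0 →
      ∀ T S : E d → E d, IsBrenierMap K μ T → IsBrenierMap K ν S →
        L2dist (unif K) T S ≤ C * W2 μ ν ^ (1 / 4 : ℝ) := by
  obtain ⟨C, hC⟩ := stab_W1 hK hint hY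
  have := isProbabilityMeasure_unif hK hint
  refine ⟨C, ?_⟩
  intro μ ν hμ hν T S hT hS
  have hprob : IsProbabilityMeasure μ := by
    rw [← hT.2.1]
    exact Measure.isProbabilityMeasure_map hT.1.aemeasurable
  refine le_trans (hC μ ν hμ hν T S hT hS) ?_
  gcongr
  exact W1_le_W2 μ ν

end Vale.Agent.Lib.P074
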