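import Vale.Agent.Lib.P074S.PwTrans
import Vale.Agent.Lib.P074S.OptMapB

open MeasureTheory Metric
open scoped ENNReal NNReal RealInnerProductSpace

namespace Vale.Agent.Lib.P074

variable {d : ℕ} {ι : Type} [Fintype ι]

/-- integrability of bounded measurable functions -/
lemma integrable_of_abs_le {ρ : Measure (E d)} [IsFiniteMeasure ρ] {f : E d → ℝ} (C : ℝ)
    (hf : Measurable f) (hC : ∀ᵐ x ∂ρ, |f x| ≤ C) : Integrable f ρ :=
  Integrable.of_bound hf.aestronglyMeasurable C (hC.mono fun x hx => by rwa [Real.norm_eq_abs])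

/-- expansion of the quadratic cost -/
lemma integral_cost_expand {ρ : Measure (E d)} [IsProbabilityMeasure ρ] {S : E d → E d}
    (hS : Measurable S) {R L : ℝ} (hx : ∀ᵐ x ∂ρ, ‖x‖ ≤ R) (hSL : ∀ᵐ x ∂ρ, ‖S x‖ ≤ L) :
    Integrable (fun x => ⟪x, S x⟫) ρ ∧
    ∫ x, ‖x - S x‖ ^ 2 ∂ρ
      = (∫ x, ‖x‖ ^ 2 ∂ρ) - 2 * (∫ x, ⟪x, S x⟫ ∂ρ) + ∫ x, ‖S x‖ ^ 2 ∂ρ := by
  have hip : Integrable (fun x => ⟪x, S x⟫) ρ := by
    apply integrable_of_abs_le (R * L) (by fun_prop)
    filter_upwards [hSL, hx] with x h1 h2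
    exact (abs_real_inner_le_norm _ _).trans
      (mul_le_mul h2 h1 (norm_nonneg _) ((norm_nonneg _).trans h2))
  have hsq : Integrable (fun x => ‖S x‖ ^ 2) ρ := by
    apply integrable_of_abs_le (L ^ 2) (by fun_prop)
    filter_upwards [hSL] with x h1
    rw [abs_of_nonneg (by positivity)]
    exact pow_le_pow_left₀ (norm_nonneg _) h1 2
  have hxsq : Integrable (fun x : E d => ‖x‖ ^ 2) ρ := by
    apply integrable_of_abs_le (R ^ 2) (by fun_prop)
    filter_upwards [hx] with x h1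
    rw [abs_of_nonneg (by positivity)]
    exact pow_le_pow_left₀ (norm_nonneg _) h1 2
  refine ⟨hip, ?_⟩
  have : (fun x => ‖x - S x‖ ^ 2) = fun x => ‖x‖ ^ 2 - 2 * ⟪x, S x⟫ + ‖S x‖ ^ 2 := by
    funext x; exact norm_sub_sq_real _ _
  have h2 : Integrable (fun x => 2 * ⟪x, S x⟫) ρ := hip.const_mul 2
  have hsub : Integrable (fun x => ‖x‖ ^ 2 - 2 * ⟪x, S x⟫) ρ := hxsq.sub h2
  rw [this, integral_add hsub hsq, integral_sub hxsq h2, integral_const_mul]

/-- TASK X3 (swapping balls). With `σ = pwTrans w (fun i => w (π.symm i) - w i) ε`,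
`τ = pwTrans w (fun i => w (π i) - w i) ε` the map `S = T ∘ σ` is a competitor
(`(unif K).map σ = unif K`), `∫ ‖S‖² = ∫ ‖T‖²`, and
`∫ ⟪z, T (σ z)⟫ = ∫ ⟪τ (σ z), T (σ z)⟫ = ∫ ⟪τ u, T u⟫ = ∫ ⟪u, T u⟫ + c ∑ i, ∫_{B_i} ⟪T u, w (π i) - w i⟫`
with `c = (volume K)⁻¹ > 0`. Optimality of `T` gives `∫ ⟪z, S z⟫ ≤ ∫ ⟪z, T z⟫`. -/
theorem swap_ineq {K : Set (E d)} (hK : IsCompact K) (hint : (interior K).Nonempty)
    {μ : Measure (E d)} {T : E d → E d} (hT : IsOptMap (unif K) μ T) {L : ℝ}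
    (hTL : ∀ x, ‖T x‖ ≤ L) (π : Equiv.Perm ι) (w : ι → E d) (ε : ℝ)
    (hsub : ∀ i, closedBall (w i) ε ⊆ K)
    (hdisj : Pairwise fun i j => Disjoint (closedBall (w i) ε) (closedBall (w j) ε)) :
    ∑ i, ∫ u in closedBall (w i) ε, ⟪T u, w (π i) - w i⟫ ≤ 0 := by
  obtain ⟨hTm, hTμ, hTopt⟩ := hT
  have hprob : IsProbabilityMeasure (unif K) := isProbabilityMeasure_unif hK hint
  set σ := pwTrans w (fun i => w (π.symm i) - w i) ε with hσ
  set τ := pwTrans w (fun i => w (π i) - w i) ε with hτ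
  have hσm : Measurable σ := measurable_pwTrans _ _ _
  have hτm : Measurable τ := measurable_pwTrans _ _ _
  have hτσ : ∀ z, τ (σ z) = z := pwTrans_pwTrans_symm π hdisj
  have hσmp : MeasurePreserving σ (volume.restrict K) (volume.restrict K) :=
    measurePreserving_pwTrans π.symm hK.measurableSet hsub hdisj
  have hρσ : (unif K).map σ = unif K := by
    unfold unif
    rw [Measure.map_smul, hσmp.map_eq]
  obtain ⟨R, hR⟩ := hK.isBounded.exists_norm_le
  have hxR : ∀ᵐ x ∂(unif K), ‖x‖ ≤ R := (ae_mem_unif hK).mono fun x hx => hR x hx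
  set S : E d → E d := fun z => T (σ z) with hS
  have hSm : Measurable S := hTm.comp hσm
  have hSμ : (unif K).map S = μ := by
    have : S = T ∘ σ := rfl
    rw [this, ← Measure.map_map hTm hσm, hρσ, hTμ]
  have hSL : ∀ᵐ x ∂(unif K), ‖S x‖ ≤ L := Filter.Eventually.of_forall fun x => hTL _
  have hTL' : ∀ᵐ x ∂(unif K), ‖T x‖ ≤ L := Filter.Eventually.of_forall fun x => hTL _
  have hcost : ∫ x, ‖x - T x‖ ^ 2 ∂(unif K) ≤ ∫ x, ‖x - S x‖ ^ 2 ∂(unif K) := by
    have h := hTopt S hSm hSμ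
    rw [(mapCost_eq_ofReal hTm hxR hTL').2, (mapCost_eq_ofReal hSm hxR hSL).2] at h
    exact (ENNReal.ofReal_le_ofReal_iff (integral_nonneg fun x => by positivity)).1 h
  obtain ⟨hipT, hexpT⟩ := integral_cost_expand hTm hxR hTL'
  obtain ⟨hipS, hexpS⟩ := integral_cost_expand hSm hxR hSL
  -- change of variables along σ
  have cov : ∀ f : E d → ℝ, Measurable f → ∫ x, f (σ x) ∂(unif K) = ∫ x, f x ∂(unif K) := by
    intro f hf
    conv_rhs => rw [← hρσ]
    rw [integral_map hσm.aemeasurable hf.aestronglyMeasurable]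
  have hsq : ∫ x, ‖S x‖ ^ 2 ∂(unif K) = ∫ x, ‖T x‖ ^ 2 ∂(unif K) :=
    cov (fun u => ‖T u‖ ^ 2) (by fun_prop)
  have hle : ∫ x, ⟪x, S x⟫ ∂(unif K) ≤ ∫ x, ⟪x, T x⟫ ∂(unif K) := by
    rw [hexpT, hexpS, hsq] at hcost
    linarith
  have hG : ∫ x, ⟪x, S x⟫ ∂(unif K) = ∫ u, ⟪τ u, T u⟫ ∂(unif K) := by
    rw [← cov (fun u => ⟪τ u, T u⟫) (by fun_prop)]
    congr 1
    funext x
    rw [hτσ x]
  -- expansion of τ
  have hτexp : ∀ u, ⟪τ u, T u⟫ = ⟪u, T u⟫
      + ∑ i, (closedBall (w i) ε).indicator (fun u => ⟪T u, w (π i) - w i⟫) u := by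
    intro u
    simp only [hτ, pwTrans]
    rw [inner_add_left, sum_inner]
    congr 1
    apply Finset.sum_congr rfl
    intro i _
    by_cases hu : u ∈ closedBall (w i) ε
    · simp only [Set.indicator_of_mem hu]
      exact real_inner_comm _ _
    · simp only [Set.indicator_of_notMem hu]
      exact inner_zero_left _
  have hind : ∀ i, Integrable
      ((closedBall (w i) ε).indicator (fun u => ⟪T u, w (π i) - w i⟫)) (unif K) := by
    intro i
    apply Integrable.indicator _ isClosed_closedBall.measurableSet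
    apply integrable_of_abs_le (L * ‖w (π i) - w i‖) (by fun_prop)
    refine Filter.Eventually.of_forall fun u => ?_
    exact (abs_real_inner_le_norm _ _).trans
      (mul_le_mul_of_nonneg_right (hTL u) (norm_nonneg _))
  have hsum : ∫ u, ⟪τ u, T u⟫ ∂(unif K) = (∫ u, ⟪u, T u⟫ ∂(unif K))
      + (volume K).toReal⁻¹ * ∑ i, ∫ u in closedBall (w i) ε, ⟪T u, w (π i) - w i⟫ := by
    have h1 : (fun u => ⟪τ u, T u⟫) = fun u => ⟪u, T u⟫
      + ∑ i, (closedBall (w i) ε).indicator (fun u => ⟪T u, w (π i) - w i⟫) u := funext hτexp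
    rw [h1, integral_add hipT (integrable_finsetSum _ fun i _ => hind i),
      integral_finsetSum _ fun i _ => hind i, Finset.mul_sum]
    congr 1
    apply Finset.sum_congr rfl
    intro i _
    rw [integral_unif, setIntegral_indicator isClosed_closedBall.measurableSet,
      Set.inter_eq_right.2 (hsub i)]
  have hc : 0 < (volume K).toReal⁻¹ := by
    apply inv_pos.2
    exact ENNReal.toReal_pos (volume_pos_of_interior hint).ne' hK.measure_lt_top.ne
  rw [hG, hsum] at hle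
  have : (volume K).toReal⁻¹ * ∑ i, ∫ u in closedBall (w i) ε, ⟪T u, w (π i) - w i⟫ ≤ 0 := by
    linarith
  by_contra hcon
  rw [not_le] at hcon
  have := mul_pos hc hcon
  linarith

end Vale.Agent.Lib.P074
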