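import Vale.Agent.Lib.P074S.Defs

open MeasureTheory
open scoped ENNReal NNReal RealInnerProductSpace

namespace Vale.Agent.Lib.P074

variable {d : ℕ}

theorem volume_pos_of_interior {K : Set (E d)} (hint : (interior K).Nonempty) :
    0 < volume K :=
  lt_of_lt_of_le (isOpen_interior.measure_pos volume hint) (measure_mono interior_subset)

theorem isProbabilityMeasure_unif {K : Set (E d)} (hK : IsCompact K)
    (hint : (interior K).Nonempty) : IsProbabilityMeasure (unif K) := by
  constructor
  unfold unif
  rw [Measure.smul_apply, Measure.restrict_apply MeasurableSet.univ, Set.univ_inter, smul_eq_mul]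
  exact ENNReal.inv_mul_cancel (volume_pos_of_interior hint).ne' hK.measure_lt_top.ne

theorem ae_mem_unif {K : Set (E d)} (hK : IsCompact K) : ∀ᵐ x ∂(unif K), x ∈ K := by
  unfold unif
  apply Measure.ae_smul_measure
  exact ae_restrict_mem hK.measurableSet

theorem integral_unif {K : Set (E d)} (f : E d → ℝ) :
    ∫ x, f x ∂(unif K) = (volume K).toReal⁻¹ * ∫ x in K, f x := by
  unfold unif
  rw [integral_smul_measure, ENNReal.toReal_inv, smul_eq_mul]

theorem ae_map_of_ae {ρ μ : Measure (E d)} {T : E d → E d} (hT : Measurable T)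
    (hTμ : ρ.map T = μ) {Y : Set (E d)} (hY : MeasurableSet Y) (hμ : μ Yᶜ = 0) :
    ∀ᵐ x ∂ρ, T x ∈ Y := by
  rw [← hTμ, Measure.map_apply hT hY.compl] at hμ
  rw [ae_iff]
  exact hμ

end Vale.Agent.Lib.P074
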